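import Vale.Agent.P180.R2.H589.Oa.Rd2
import Vale.Agent.P180.R2.H589.Sp.Au4

/-!
P180: automorphisms of orthogonal groups: the automorphisms of the first radical.
-/

set_option linter.all false

namespace Vale.Agent.P180.R2.H589.Oa

open Subgroup Module
open LinearMap (BilinForm)
open Vale.Agent.P180.R2.H589.Sch
open Vale.Agent.P180.R2.H589.Or (Sm hypo hypo_apply hypo_sm splitE splitE_iso splitE_apply BW_sm
  pr_mem Cl qo qo_apply qo_mem qo_mul qo_zero qo_inv qo_pel qo_inj)
open Vale.Agent.P180.R2.H589.Sp (SpG mem_SpG WW BW BW_apply lv lv_apply lv_mul lv_one lv_inv oo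
  oo_ne finite_gl SSim o')

theorem exists_mu {K : Type*} [Field K] [Finite K] (hK : 3 < Nat.card K) :
    ∃ a : K, a ≠ 0 ∧ a ^ 2 ≠ 1 := by
  obtain ⟨x, hx⟩ : IsCyclic Kˣ := by infer_instance
  have h1 : orderOf x = Nat.card Kˣ := orderOf_eq_card_of_forall_mem_zpowers hx
  have h2 : Nat.card K = Nat.card Kˣ + 1 := Nat.card_eq_card_units_add_one K
  refine ⟨x, x.ne_zero, fun h => ?_⟩
  have h4 : x ^ 2 = 1 := Units.ext (by rw [Units.val_pow_eq_pow_val, h, Units.val_one])
  have h5 := orderOf_le_of_pow_eq_one (by norm_num) h4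
  omega

section Form

variable {K W : Type*} [Field K] [AddCommGroup W] [Module K W] {B D : BilinForm K W}

theorem form_aux (h2 : (2 : K) ≠ 0) (hμ : ∃ μ : K, μ ≠ 0 ∧ μ ^ 2 ≠ 1) (hB : ∀ x y, B y x = B x y)
    (hD : ∀ x y, D y x = D x y) (h0 : ∀ x, B x x = 0 → D x x = 0) {e f : W} (he : B e e = 0)
    (hf : B f f = 0) (hef : B e f = 1) {y : W} (hey : B e y = 0) (hfy : B f y = 0) :
    D e y = 0 ∧ D y y = D e f * B y y := by
  have key : ∀ t : K, t ≠ 0 → D y y * t + 2 * t * t * D e y - B y y * D f y -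
      B y y * D e f * t = 0 := by
    intro t ht
    have h1 : B (y + t • e - (B y y * (2 * t)⁻¹) • f) (y + t • e - (B y y * (2 * t)⁻¹) • f) = 0 := by
      simp only [map_add, map_sub, map_smul, LinearMap.add_apply, LinearMap.sub_apply,
        LinearMap.smul_apply, smul_eq_mul, he, hf, hef, hey, hfy, hB e y, hB f y, hB e f]
      field_simp
      ring
    have h3 := h0 _ h1
    have h4 := h0 e he
    have h5 := h0 f hf
    simp only [map_add, map_sub, map_smul, LinearMap.add_apply, LinearMap.sub_apply,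
        LinearMap.smul_apply, smul_eq_mul, h4, h5, hD e y, hD f y, hD e f] at h3
    field_simp at h3
    have h6 : (2 * 2 * t) * (D y y * t + 2 * t * t * D e y - B y y * D f y -
        B y y * D e f * t) = 0 := by linear_combination h3
    exact (mul_eq_zero.mp h6).resolve_left (mul_ne_zero (mul_ne_zero h2 h2) ht)
  obtain ⟨μ, hμ0, hμ1⟩ := hμ
  have k1 := key 1 one_ne_zero
  have k2 := key (-1) (neg_ne_zero.mpr one_ne_zero)
  have k3 := key μ hμ0
  have e1 : D y y = D e f * B y y := by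
    have h3 : 2 * (D y y - D e f * B y y) = 0 := by linear_combination k1 - k2
    exact sub_eq_zero.mp ((mul_eq_zero.mp h3).resolve_left h2)
  have e2 : 2 * D e y = B y y * D f y := by
    linear_combination k1 - e1
  have e3 : (μ ^ 2 - 1) * (2 * D e y) = 0 := by
    linear_combination k3 - μ * e1 - e2
  refine ⟨?_, e1⟩
  exact (mul_eq_zero.mp ((mul_eq_zero.mp e3).resolve_left (sub_ne_zero.mpr hμ1))).resolve_left h2

/-- **Forms with the same singular vectors.** -/
theorem form_prop (h2 : (2 : K) ≠ 0) (hμ : ∃ μ : K, μ ≠ 0 ∧ μ ^ 2 ≠ 1) (hB : Sm B)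
    (hD : ∀ x y, D y x = D x y) (h0 : ∀ x, B x x = 0 → D x x = 0) {e f : W} (he : B e e = 0)
    (hf : B f f = 0) (hef : B e f = 1) (x y : W) : D x y = D e f * B x y := by
  have hfe : B f e = 1 := by rw [hB.symm, hef]
  have key : ∀ v, D v v = D e f * B v v := by
    intro v
    obtain ⟨w, hw⟩ : ∃ w, w = v - B f v • e - B e v • f := ⟨_, rfl⟩
    have h1 := pr_mem hB he hf hef v
    rw [← hw] at h1
    have hw1 : B e w = 0 := h1.1
    have hw2 : B f w = 0 := h1.2
    obtain ⟨e1, e2⟩ := form_aux h2 hμ hB.symm hD h0 he hf hef hw1 hw2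
    obtain ⟨e3, -⟩ := form_aux h2 hμ hB.symm hD h0 hf he hfe hw2 hw1
    have h3 : v = B f v • e + B e v • f + w := by
      rw [hw]
      abel
    obtain ⟨a, ha⟩ : ∃ a, a = B f v := ⟨_, rfl⟩
    obtain ⟨b, hb⟩ : ∃ b, b = B e v := ⟨_, rfl⟩
    rw [← ha, ← hb] at h3
    rw [h3]
    simp only [map_add, map_smul, LinearMap.add_apply, LinearMap.smul_apply, smul_eq_mul, he, hf,
      hef, hfe, hw1, hw2, hB.symm e w, hB.symm f w, h0 e he, h0 f hf, e1, e3, hD e w, hD f w,
      hD e f, e2]
    ring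
  have h3 := key (x + y)
  simp only [map_add, LinearMap.add_apply] at h3
  rw [key x, key y, hD x y, hB.symm x y] at h3
  have h4 : 2 * (D x y - D e f * B x y) = 0 := by linear_combination h3
  exact sub_eq_zero.mp ((mul_eq_zero.mp h4).resolve_left h2)

end Form

section Im

variable {K V : Type*} [Field K] [Finite K] [AddCommGroup V] [Module K V] [Module.Finite K V]
  {p : ℕ} [hp : Fact p.Prime]
  [CharP K p] {B : BilinForm K V} {X : Subgroup (V ≃ₗ[K] V)} (c : Ctx p B X)
  {T : Type*} [Group T] {π : X →* T} (h : PiC π)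

/-- the image of a radical -/
def Im (B : BilinForm K V) (π : X →* T) (β : MulAut T) (v w : V) : Prop :=
  ∀ x, β x ∈ RT B π w ↔ x ∈ RT B π v

include hp c h

/-- independence -/
theorem ind_img (hd : 3 ≤ finrank K V) {β : MulAut T} {v v' w w' : V} (hv : Im B π β v v')
    (hw : Im B π β w w') (hv0 : v ≠ 0) (hw0 : w ≠ 0) (hw0' : w' ≠ 0) (hvs : B v v = 0)
    (hws : B w w = 0) (hvs' : B v' v' = 0) (hk : ∀ k : K, w ≠ k • v) : ∀ k : K, w' ≠ k • v' := by
  haveI : Finite V := Module.finite_of_finite K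
  rintro k rfl
  have hk0 : k ≠ 0 := by
    rintro rfl
    exact hw0' (zero_smul _ _)
  obtain ⟨j, hj⟩ := RT_eq c h hd hv0 hw0 hvs hws (fun t ht => by
    rw [← hw, RT_smul c hk0 hvs', hv]
    exact ht)
  exact hk j hj

/-- orthogonality -/
theorem orth_img (hd : 3 ≤ finrank K V) {β : MulAut T} {v v' w w' : V} (hv : Im B π β v v')
    (hw : Im B π β w w') (hv0 : v ≠ 0) (hw0 : w ≠ 0) (hv0' : v' ≠ 0) (hw0' : w' ≠ 0)
    (hvs : B v v = 0) (hws : B w w = 0) (hvs' : B v' v' = 0) (hws' : B w' w' = 0)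
    (hk : ∀ k : K, w ≠ k • v) : B v' w' = 0 ↔ B v w = 0 := by
  haveI : Finite V := Module.finite_of_finite K
  have hk' := ind_img c h hd hv hw hv0 hw0 hw0' hvs hws hvs' hk
  rw [← RT_inf c h hv0 hw0 hvs hws hk, ← RT_inf c h hv0' hw0' hvs' hws' hk']
  constructor
  · rintro ⟨t, h1, h3, h4⟩
    refine ⟨β.symm t, ?_, ?_, ?_⟩
    · rw [← hv, MulEquiv.apply_symm_apply]
      exact h1
    · rw [← hw, MulEquiv.apply_symm_apply]
      exact h3
    · intro h5
      apply h4
      rw [← MulEquiv.apply_symm_apply β t, h5, map_one]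
  · rintro ⟨t, h1, h3, h4⟩
    refine ⟨β t, (hv t).mpr h1, (hw t).mpr h3, fun h5 => h4 ?_⟩
    apply β.injective
    rw [h5, map_one]

end Im

section Norm

variable {K W : Type*} [Field K] [Finite K] [AddCommGroup W] [Module K W] [Module.Finite K W]
  {p : ℕ} [hp : Fact p.Prime] [CharP K p] {B : BilinForm K W} (hB : Sm B)
  {X : Subgroup ((K × W × K) ≃ₗ[K] (K × W × K))} (c : Ctx p (hypo B) X)
  {T : Type*} [Group T] {π : X →* T} (h : PiC π)

theorem o'_ne : o' K W ≠ 0 := fun h => one_ne_zero (congrArg (fun u : K × W × K => u.2.2) h)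

theorem o'_sing (B : BilinForm K W) : hypo B (o' K W) (o' K W) = 0 := by
  rw [hypo_apply]
  change (0 : K) * 1 + 1 * 0 + B 0 0 = 0
  rw [map_zero]
  ring

theorem oo_orth (B : BilinForm K W) (v : K × W × K) : hypo B (oo K W) v = v.2.2 := by
  rw [hypo_apply]
  change (1 : K) * v.2.2 + 0 * v.1 + B 0 v.2.1 = v.2.2
  rw [map_zero, LinearMap.zero_apply]
  ring

theorem o'_orth (B : BilinForm K W) (v : K × W × K) : hypo B (o' K W) v = v.1 := by
  rw [hypo_apply]
  change (0 : K) * v.2.2 + 1 * v.1 + B 0 v.2.1 = v.1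
  rw [map_zero, LinearMap.zero_apply]
  ring

theorem oo_o'_ind (k : K) : o' K W ≠ k • oo K W := by
  intro h0
  have h1 := congrArg (fun u : K × W × K => u.2.2) h0
  change (1 : K) = k * 0 at h1
  rw [mul_zero] at h1
  exact one_ne_zero h1

theorem smul_sing {V : Type*} [AddCommGroup V] [Module K V] {B : BilinForm K V} {v : V}
    (hv : B v v = 0) (k : K) : B (k • v) (k • v) = 0 := by
  rw [map_smul, map_smul, LinearMap.smul_apply, hv, smul_zero, smul_zero]

include hp c

omit [Finite K] [Module.Finite K W] in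
theorem qX_o' (y : W) :
    ((qX B X y : X) : (K × W × K) ≃ₗ[K] (K × W × K)) (o' K W) = (-(2⁻¹ * B y y), y, 1) := by
  rw [qX_val c, qo_apply]
  refine Prod.ext ?_ (Prod.ext ?_ rfl)
  · change (0 : K) - B 0 y - (2⁻¹ * B y y) * 1 = _
    rw [map_zero, LinearMap.zero_apply]
    ring
  · change (0 : W) + (1 : K) • y = y
    rw [one_smul, zero_add]

omit [Finite K] [Module.Finite K W] in
theorem qX_oo (y : W) :
    ((qX B X y : X) : (K × W × K) ≃ₗ[K] (K × W × K)) (oo K W) = oo K W := by
  rw [qX_val c, qo_apply]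
  refine Prod.ext ?_ (Prod.ext ?_ rfl)
  · change (1 : K) - B 0 y - (2⁻¹ * B y y) * 0 = 1
    rw [map_zero, LinearMap.zero_apply]
    ring
  · change (0 : W) + (0 : K) • y = 0
    rw [zero_smul, zero_add]

omit hp c [Finite K] [Module.Finite K W] in
omit [CharP K p] in
theorem conj_iff_of_mem {X Y : Subgroup T} {β : MulAut T} (h : ∀ x, β x ∈ Y ↔ x ∈ X) (t x : T) :
    (β t)⁻¹ * β x * β t ∈ Y ↔ t⁻¹ * x * t ∈ X := by
  rw [← h, map_mul, map_mul, map_inv]

include hB h

/-- Normalisation. -/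
theorem exists_norm (hd : 5 ≤ finrank K W) (hd6 : finrank K W ≠ 6) (α : MulAut T) : ∃ t : T,
    Im (hypo B) π (MulAut.conj t * α) (oo K W) (oo K W) ∧
    Im (hypo B) π (MulAut.conj t * α) (o' K W) (o' K W) := by
  haveI : Finite W := Module.finite_of_finite K
  have hfin : finrank K (K × W × K) = finrank K W + 2 := by
    rw [Module.finrank_prod, Module.finrank_prod, Module.finrank_self]
    omega
  obtain ⟨w₁, hw₁0, hw₁s, hw₁⟩ := exists_img hB c h hd hd6 α oo_ne (oo_sing B)
  obtain ⟨g, k, hk0, hk⟩ := trans c (by omega) oo_ne hw₁0 (oo_sing B) hw₁s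
  have h1 : Im (hypo B) π (MulAut.conj (π g)⁻¹ * α) (oo K W) (oo K W) := by
    intro x
    rw [MulAut.mul_apply, MulAut.conj_apply, inv_inv, RT_conj_iff' c g (oo_sing B), hk,
      RT_smul c hk0 hw₁s, hw₁]
  obtain ⟨β, hβ⟩ : ∃ β, β = MulAut.conj (π g)⁻¹ * α := ⟨_, rfl⟩
  rw [← hβ] at h1
  obtain ⟨w, hw0, hws, hw⟩ := exists_img hB c h hd hd6 β (o'_ne (K := K) (W := W)) (o'_sing B)
  -- `w` is not orthogonal to the first vector
  have hw2 : w.2.2 ≠ 0 := by
    intro h0
    have h3 := (orth_img c h (by omega) h1 hw oo_ne o'_ne oo_ne hw0 (oo_sing B) (o'_sing B)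
      (oo_sing B) hws oo_o'_ind).mp (by rw [oo_orth, h0])
    rw [oo_orth] at h3
    exact one_ne_zero h3
  obtain ⟨a, ha⟩ : ∃ a : X, a = qX B X (w.2.2⁻¹ • w.2.1) := ⟨_, rfl⟩
  have ha1 : (a : (K × W × K) ≃ₗ[K] (K × W × K)) (o' K W) = w.2.2⁻¹ • w := by
    rw [ha, qX_o' c]
    refine Prod.ext ?_ (Prod.ext rfl ?_)
    · change -(2⁻¹ * B (w.2.2⁻¹ • w.2.1) (w.2.2⁻¹ • w.2.1)) = w.2.2⁻¹ * w.1
      rw [map_smul, map_smul, LinearMap.smul_apply, smul_eq_mul, smul_eq_mul]
      rw [hypo_apply] at hws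
      have h2 := c.two
      field_simp
      linear_combination -hws
    · exact (inv_mul_cancel₀ hw2).symm
  have ha2 : (a : (K × W × K) ≃ₗ[K] (K × W × K)) (oo K W) = oo K W := by rw [ha, qX_oo c]
  have ha3 : RT (hypo B) π w = RT (hypo B) π ((a : (K × W × K) ≃ₗ[K] (K × W × K)) (o' K W)) := by
    rw [ha1, RT_smul c (inv_ne_zero hw2) hws]
  have key : ∀ x, (MulAut.conj ((π a)⁻¹ * (π g)⁻¹) * α) x = (π a)⁻¹ * β x * π a := by
    intro x
    rw [map_mul, mul_assoc, ← hβ, MulAut.mul_apply, MulAut.conj_apply, inv_inv]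
  refine ⟨(π a)⁻¹ * (π g)⁻¹, fun x => ?_, fun x => ?_⟩
  · rw [key, RT_conj_iff' c a (oo_sing B), ha2, h1]
  · rw [key, RT_conj_iff' c a (o'_sing B), ← ha3, hw]

/-- **Automorphisms which stabilise the first and the last radical** act semilinearly on the
first radical. -/
theorem exists_maps (hK : 3 < Nat.card K) (hd : 5 ≤ finrank K W) (hd6 : finrank K W ≠ 6)
    {β : MulAut T} (h1 : Im (hypo B) π β (oo K W) (oo K W))
    (h1' : Im (hypo B) π β (o' K W) (o' K W)) :
    ∃ (s : W ≃+ W) (σ : K ≃+* K) (κ : K), κ ≠ 0 ∧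
      (∀ (a : K) y, s (a • y) = σ a • s y) ∧
      (∀ y y', B (s y) (s y') = κ * σ (B y y')) ∧
      (∀ y, β (π (qX B X y)) = π (qX B X (s y))) ∧
      ∀ y, y ≠ 0 → B y y = 0 → Im (hypo B) π β ((0 : K), y, (0 : K)) ((0 : K), s y, (0 : K)) := by
  haveI : Finite W := Module.finite_of_finite K
  have hfin : finrank K (K × W × K) = finrank K W + 2 := by
    rw [Module.finrank_prod, Module.finrank_prod, Module.finrank_self]
    omega
  have h2 := c.two
  obtain ⟨e, he0, he⟩ := exists_sing hB h2 (by omega : 3 ≤ finrank K W)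
  obtain ⟨f, hef, hf⟩ := hB.exists_pair h2 he0 he
  have hR : ∀ y : W, ∃ z : W, β (π (qX B X y)) = π (qX B X z) := fun y =>
    (mem_RT_oo c).mp ((h1 _).mpr ((mem_RT_oo c).mpr ⟨y, rfl⟩))
  choose s hs using hR
  have hsadd : ∀ y y', s (y + y') = s y + s y' := by
    intro y y'
    apply pq_inj c h
    rw [← hs, ← qX_mul hB c, ← qX_mul hB c, map_mul, map_mul, map_mul, hs, hs]
  have hs0 : s 0 = 0 := by
    have := hsadd 0 0
    rw [add_zero] at this
    exact add_eq_left.mp this.symm
  have hsker : ∀ y, s y = 0 → y = 0 := by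
    intro y hy
    apply pq_inj c h
    apply β.injective
    rw [hs, hs, hy, hs0]
  let s' : W →+ W := { toFun := s, map_zero' := hs0, map_add' := hsadd }
  have hsinj : Function.Injective s' := (injective_iff_map_eq_zero s').mpr hsker
  have hsbij : Function.Bijective s' := Finite.injective_iff_bijective.mp hsinj
  let S : W ≃+ W := AddEquiv.ofBijective s' hsbij
  have hS : ∀ y, S y = s y := fun y => rfl
  -- the singular vectors
  have mids : ∀ y : W, B y y = 0 → hypo B ((0 : K), y, (0 : K)) ((0 : K), y, (0 : K)) = 0 := by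
    intro y hy
    rw [hypo_apply]
    change (0 : K) * 0 + 0 * 0 + B y y = 0
    rw [hy]
    ring
  have mid0 : ∀ y : W, y ≠ 0 → ((0 : K), y, (0 : K)) ≠ 0 := fun y hy h0 =>
    hy (congrArg (fun u : K × W × K => u.2.1) h0)
  have midi : ∀ y : W, y ≠ 0 → ∀ k : K, ((0 : K), y, (0 : K)) ≠ k • oo K W := by
    intro y hy k h0
    have h3 := congrArg (fun u : K × W × K => u.2.1) h0
    change y = k • (0 : W) at h3
    rw [smul_zero] at h3
    exact hy h3
  have midi' : ∀ y : W, y ≠ 0 → ∀ k : K, ((0 : K), y, (0 : K)) ≠ k • o' K W := by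
    intro y hy k h0
    have h3 := congrArg (fun u : K × W × K => u.2.1) h0
    change y = k • (0 : W) at h3
    rw [smul_zero] at h3
    exact hy h3
  have stepC : ∀ y, y ≠ 0 → B y y = 0 → B (s y) (s y) = 0 ∧ (∀ a : K, ∃ k : K, s (a • y) = k • s y) ∧
      Im (hypo B) π β ((0 : K), y, (0 : K)) ((0 : K), s y, (0 : K)) := by
    intro y hy0 hy
    obtain ⟨w, hw0, hws, hw⟩ := exists_img hB c h hd hd6 β (mid0 y hy0) (mids y hy)
    have e1 : w.2.2 = 0 := by
      have h3 := (orth_img c h (by omega) h1 hw oo_ne (mid0 y hy0) oo_ne hw0 (oo_sing B)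
        (mids y hy) (oo_sing B) hws (midi y hy0)).mpr (oo_orth B _)
      rwa [oo_orth] at h3
    have e2 : w.1 = 0 := by
      have h3 := (orth_img c h (by omega) h1' hw o'_ne (mid0 y hy0) o'_ne hw0 (o'_sing B)
        (mids y hy) (o'_sing B) hws (midi' y hy0)).mpr (o'_orth B _)
      rwa [o'_orth] at h3
    have e3 : w = ((0 : K), w.2.1, (0 : K)) := Prod.ext e2 (Prod.ext rfl e1)
    have e4 : w.2.1 ≠ 0 := by
      intro h0
      apply hw0
      rw [e3, h0]
      rfl
    have e5 : ∀ a : K, ∃ b : K, s (a • y) = b • w.2.1 := by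
      intro a
      have f1 : π (qX B X (a • y)) ∈ RT (hypo B) π ((0 : K), y, (0 : K)) := by
        have g1 : hypo B (oo K W) ((0 : K), y, (0 : K)) = 0 := oo_mid B 0 y
        have g2 : hypo B (a • oo K W) ((0 : K), y, (0 : K)) = 0 := by
          rw [map_smul, LinearMap.smul_apply, g1, smul_zero]
        have g3 : qX B X (a • y) = rX (hypo B) X ((0 : K), y, (0 : K)) (-(a • oo K W)) := by
          rw [← rX_swap c (smul_sing (oo_sing B) a) (mids y hy) g2,
            rX_smul c (oo_sing B) g1, qX]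
          congr 1
          refine Prod.ext (mul_zero a).symm (Prod.ext rfl (mul_zero a).symm)
        rw [g3]
        refine rX_mem_RT ?_
        rw [map_neg, c.sm.symm (a • oo K W), g2, neg_zero]
      have f2 := (hw _).mpr f1
      rw [hs] at f2
      obtain ⟨z, hz, hyz⟩ := (mem_RT c hws).mp f2
      have f3 := pel_inj h (qX_pel c _) (rX_pel c hws hz) hyz
      obtain ⟨i, j, hij, -, -⟩ := rX_eq c oo_ne hw0 (oo_sing B) hws (oo_mid B 0 _) hz (by
        rw [e3]
        exact midi _ e4) f3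
      refine ⟨j, ?_⟩
      have f4 := congrArg (fun u : K × W × K => u.2.1) hij
      change s (a • y) = i • (0 : W) + j • w.2.1 at f4
      rwa [smul_zero, zero_add] at f4
    obtain ⟨b, hb⟩ := e5 1
    rw [one_smul] at hb
    have hb0 : b ≠ 0 := by
      rintro rfl
      rw [zero_smul] at hb
      exact hy0 (hsker y hb)
    have e6 : w = b⁻¹ • ((0 : K), s y, (0 : K)) := by
      rw [hb]
      refine e3.trans (Prod.ext (mul_zero _).symm (Prod.ext ?_ (mul_zero _).symm))
      change w.2.1 = b⁻¹ • b • w.2.1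
      rw [smul_smul, inv_mul_cancel₀ hb0, one_smul]
    have e7 : B w.2.1 w.2.1 = 0 := by
      rw [e3, hypo_apply] at hws
      change (0 : K) * 0 + 0 * 0 + B w.2.1 w.2.1 = 0 at hws
      rwa [mul_zero, zero_add, zero_add] at hws
    have e8 : B (s y) (s y) = 0 := by rw [hb]; exact smul_sing e7 b
    refine ⟨e8, fun a => ?_, fun x => ?_⟩
    · obtain ⟨i, hi⟩ := e5 a
      refine ⟨i * b⁻¹, ?_⟩
      rw [hi, hb, smul_smul, inv_mul_cancel_right₀ hb0]
    · rw [← hw x, e6, RT_smul c (inv_ne_zero hb0) (mids _ e8)]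
  -- the field automorphism
  have hτ : ∀ (y : W) (a : K), ∃ k : K, y ≠ 0 → B y y = 0 → s (a • y) = k • s y := by
    intro y a
    by_cases hy : y ≠ 0 ∧ B y y = 0
    · obtain ⟨k, hk⟩ := (stepC y hy.1 hy.2).2.1 a
      exact ⟨k, fun _ _ => hk⟩
    · exact ⟨0, fun h3 h4 => absurd ⟨h3, h4⟩ hy⟩
  choose τ hτ using hτ
  have hconst : ∀ {y z : W}, y ≠ 0 → z ≠ 0 → B y y = 0 → B z z = 0 → τ y = τ z := by
    intro y z hy0 hz0 hy hz
    refine sing_const hB h2 hd τ ?_ hy0 hz0 hy hz
    intro y z hy0 hz0 hy hz hyz hk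
    have e0 : y + z ≠ 0 := by
      intro h5
      apply hk (-1)
      rw [neg_one_smul]
      exact eq_neg_of_add_eq_zero_right h5
    have e1 : B (y + z) (y + z) = 0 := by
      simp only [map_add, LinearMap.add_apply, hy, hz, hyz, hB.symm y z, add_zero]
    have hkk : ∀ k : K, s z ≠ k • s y := by
      intro k hk'
      obtain ⟨-, -, h3⟩ := stepC y hy0 hy
      obtain ⟨-, -, h4⟩ := stepC z hz0 hz
      refine ind_img c h (by omega) h3 h4 (mid0 y hy0) (mid0 z hz0)
        (mid0 _ fun h0 => hz0 (hsker z h0)) (mids y hy) (mids z hz) (mids _ (stepC y hy0 hy).1)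
        (fun k h0 => ?_) k ?_
      · have h5 := congrArg (fun u : K × W × K => u.2.1) h0
        exact hk k h5
      · rw [hk']
        refine Prod.ext (mul_zero _).symm (Prod.ext rfl (mul_zero _).symm)
    funext a
    have e2 := hτ (y + z) a e0 e1
    rw [smul_add, hsadd, hsadd, hτ y a hy0 hy, hτ z a hz0 hz] at e2
    have e3 : (τ y a - τ (y + z) a) • s y = (τ (y + z) a - τ z a) • s z := by
      have e4 : τ y a • s y + τ z a • s z - τ (y + z) a • (s y + s z) = 0 := by rw [e2, sub_self]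
      have e5 : (τ y a - τ (y + z) a) • s y - (τ (y + z) a - τ z a) • s z =
        τ y a • s y + τ z a • s z - τ (y + z) a • (s y + s z) := by module
      rw [e4] at e5
      exact sub_eq_zero.mp e5
    have e6 : τ (y + z) a - τ z a = 0 := by
      by_contra e7
      apply hkk ((τ (y + z) a - τ z a)⁻¹ * (τ y a - τ (y + z) a))
      rw [mul_smul, e3, smul_smul, inv_mul_cancel₀ e7, one_smul]
    rw [e6, zero_smul] at e3
    have e7 := (smul_eq_zero.mp e3).resolve_right fun h0 => hy0 (hsker y h0)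
    rw [sub_eq_zero.mp e7, sub_eq_zero.mp e6]
  have hsemi : ∀ (a : K) (w : W), s (a • w) = τ e a • s w := by
    intro a w
    let H : AddSubgroup W :=
      { carrier := {w | s (a • w) = τ e a • s w}
        zero_mem' := by
          change s (a • (0 : W)) = τ e a • s 0
          rw [smul_zero, hs0, smul_zero]
        add_mem' := by
          intro x y hx hy
          change s (a • (x + y)) = τ e a • s (x + y)
          rw [smul_add, hsadd, hsadd, hx, hy, smul_add]
        neg_mem' := by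
          intro x hx
          change S (a • (-x)) = τ e a • S (-x)
          rw [smul_neg, map_neg, map_neg, smul_neg, hS, hS]
          exact congrArg Neg.neg hx }
    refine sum_sing hB h2 he hf hef H (fun v hv => ?_) w
    change s (a • v) = τ e a • s v
    by_cases hv0 : v = 0
    · rw [hv0, smul_zero, hs0, smul_zero]
    · rw [hτ v a hv0 hv, hconst hv0 he0 hv he]
  have hse0 : s e ≠ 0 := fun h0 => he0 (hsker e h0)
  let σ' : K →+* K :=
    { toFun := fun a => τ e a
      map_one' := by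
        have h3 := hsemi 1 e
        rw [one_smul] at h3
        have h4 : (τ e 1 - 1) • s e = 0 := by rw [sub_smul, one_smul, ← h3, sub_self]
        exact sub_eq_zero.mp ((smul_eq_zero.mp h4).resolve_right hse0)
      map_mul' := by
        intro a b
        have h3 := hsemi (a * b) e
        rw [mul_smul, hsemi, hsemi, smul_smul] at h3
        exact (smul_left_injective K hse0 h3).symm
      map_zero' := by
        have h3 := hsemi 0 e
        rw [zero_smul, hs0] at h3
        exact (smul_eq_zero.mp h3.symm).resolve_right hse0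
      map_add' := by
        intro a b
        have h3 := hsemi (a + b) e
        rw [add_smul, hsadd, hsemi, hsemi, ← add_smul] at h3
        exact (smul_left_injective K hse0 h3).symm }
  have hσinj : Function.Injective σ' := σ'.injective
  let σ : K ≃+* K := RingEquiv.ofBijective σ' (Finite.injective_iff_bijective.mp hσinj)
  have hσ : ∀ a, σ a = τ e a := fun a => rfl
  have hsl : ∀ (a : K) (w : W), s (a • w) = σ a • s w := hsemi
  -- the form
  let D : BilinForm K W := LinearMap.mk₂ K (fun x y => σ.symm (B (s x) (s y)))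
    (fun x x' y => by rw [hsadd, map_add, LinearMap.add_apply, map_add])
    (fun a x y => by
      rw [hsl, map_smul, LinearMap.smul_apply, smul_eq_mul, map_mul, σ.symm_apply_apply,
        smul_eq_mul])
    (fun x y y' => by rw [hsadd, map_add, map_add])
    (fun a x y => by
      rw [hsl, map_smul, smul_eq_mul, map_mul, σ.symm_apply_apply, smul_eq_mul])
  have hD : ∀ x y, D x y = σ.symm (B (s x) (s y)) := fun x y => rfl
  have hform := form_prop (D := D) h2 (exists_mu hK) hB
    (fun x y => by rw [hD, hD, hB.symm]) (fun x hx => by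
      by_cases hx0 : x = 0
      · rw [hx0, hD, hs0, map_zero, map_zero]
      · rw [hD, (stepC x hx0 hx).1, map_zero]) he hf hef
  have hform' : ∀ x y, B (s x) (s y) = σ (D e f) * σ (B x y) := by
    intro x y
    rw [← map_mul, ← hform, hD, σ.apply_symm_apply]
  refine ⟨S, σ, σ (D e f), ?_, hsl, hform', hs, fun y hy0 hy => (stepC y hy0 hy).2.2⟩
  intro h0
  apply hse0
  apply hB.nd
  intro y
  obtain ⟨y, rfl⟩ := hsbij.2 y
  change B (s e) (s y) = 0
  rw [hform', h0, zero_mul]

end Norm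

end Vale.Agent.P180.R2.H589.Oa
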