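import Vale.Agent.P180.R2.H589.Oa.Aut1

/-!
P180: **every automorphism of `Ω(V) / scalars`**, `dim V ≥ 7`, `dim V ≠ 8`, odd characteristic, is
induced by a semilinear similitude.
-/

set_option linter.all false

namespace Vale.Agent.P180.R2.H589.Oa

open Subgroup Module
open LinearMap (BilinForm)
open Vale.Agent.P180.R2.H589.Sch
open Vale.Agent.P180.R2.H589.Or (Sm hypo hypo_apply hypo_sm splitE splitE_iso splitE_apply BW_sm
  pr_mem Cl qo qo_apply qo_mem qo_mul qo_zero qo_inv qo_pel qo_inj)
open Vale.Agent.P180.R2.H589.Sp (SpG mem_SpG WW BW BW_apply lv lv_apply lv_mul lv_one lv_inv oo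
  oo_ne finite_gl SSim o')

/-- `α` is induced by `g`, up to scalars -/
def IndZ {K V : Type*} [Field K] [AddCommGroup V] [Module K V] {X : Subgroup (V ≃ₗ[K] V)}
    {T : Type*} [Group T] (π : X →* T) (α : MulAut T) (g : V ≃+ V) : Prop :=
  ∀ x z : X, α (π x) = π z →
    ∃ k : K, ∀ v, (z : V ≃ₗ[K] V) (g v) = k • g ((x : V ≃ₗ[K] V) v)

/-- Additive maps which stabilise the singular points. -/
theorem add_of_points {K V : Type*} [Field K] [Finite K] [AddCommGroup V] [Module K V]
    [Module.Finite K V] {B : BilinForm K V} (hB : Sm B) (h2 : (2 : K) ≠ 0)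
    (hd : 5 ≤ finrank K V) {z : V → V} (hadd : ∀ x y, z (x + y) = z x + z y)
    (hz : ∀ v : V, v ≠ 0 → B v v = 0 → ∃ k : K, z v = k • v) : ∃ k : K, ∀ v, z v = k • v := by
  have z0 : z 0 = 0 := by
    have := hadd 0 0
    rw [add_zero] at this
    exact add_eq_left.mp this.symm
  have zneg : ∀ x, z (-x) = - z x := by
    intro x
    have h1 := hadd (-x) x
    rw [neg_add_cancel, z0] at h1
    exact eq_neg_of_add_eq_zero_left h1.symm
  have h3 : ∀ v : V, ∃ k : K, v ≠ 0 → B v v = 0 → z v = k • v := by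
    intro v
    by_cases hv : v ≠ 0 ∧ B v v = 0
    · obtain ⟨k, hk⟩ := hz v hv.1 hv.2
      exact ⟨k, fun _ _ => hk⟩
    · exact ⟨0, fun h3 h4 => absurd ⟨h3, h4⟩ hv⟩
  choose φ hφ using h3
  have h4 : ∀ {v w : V}, v ≠ 0 → w ≠ 0 → B v v = 0 → B w w = 0 → φ v = φ w := by
    intro v w hv0 hw0 hv hw
    refine sing_const hB h2 hd φ ?_ hv0 hw0 hv hw
    intro y z' hy0 hz0 hy hz hyz hk
    have e0 : y + z' ≠ 0 := by
      intro h5
      apply hk (-1)
      rw [neg_one_smul]
      exact eq_neg_of_add_eq_zero_right h5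
    have e1 : B (y + z') (y + z') = 0 := by
      simp only [map_add, LinearMap.add_apply, hy, hz, hyz, hB.symm y z', add_zero]
    have e2 := hφ (y + z') e0 e1
    rw [hadd, hφ y hy0 hy, hφ z' hz0 hz] at e2
    have e3 : (φ y - φ (y + z')) • y = (φ (y + z') - φ z') • z' := by
      have e4 : φ y • y + φ z' • z' - φ (y + z') • (y + z') = 0 := by rw [e2, sub_self]
      have e5 : (φ y - φ (y + z')) • y - (φ (y + z') - φ z') • z' =
        φ y • y + φ z' • z' - φ (y + z') • (y + z') := by module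
      rw [e4] at e5
      exact sub_eq_zero.mp e5
    have e6 : φ (y + z') - φ z' = 0 := by
      by_contra e7
      apply hk ((φ (y + z') - φ z')⁻¹ * (φ y - φ (y + z')))
      rw [mul_smul, e3, smul_smul, inv_mul_cancel₀ e7, one_smul]
    rw [e6, zero_smul] at e3
    have e7 := (smul_eq_zero.mp e3).resolve_right hy0
    rw [sub_eq_zero.mp e7, sub_eq_zero.mp e6]
  obtain ⟨e, he0, he⟩ := exists_sing hB h2 (by omega : 3 ≤ finrank K V)
  obtain ⟨f, hef, hf⟩ := hB.exists_pair h2 he0 he
  refine ⟨φ e, fun v => ?_⟩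
  let H : AddSubgroup V :=
    { carrier := {v | z v = φ e • v}
      zero_mem' := by
        change z 0 = φ e • (0 : V)
        rw [z0, smul_zero]
      add_mem' := by
        intro x y hx hy
        change z (x + y) = φ e • (x + y)
        rw [hadd, hx, hy, smul_add]
      neg_mem' := by
        intro x hx
        change z (-x) = φ e • (-x)
        rw [zneg, hx, smul_neg] }
  exact sum_sing hB h2 he hf hef H (fun v hv => by
    change z v = φ e • v
    by_cases hv0 : v = 0
    · rw [hv0, z0, smul_zero]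
    · rw [hφ v hv0 hv, h4 hv0 he0 hv he]) v

/-- Linear maps which stabilise the singular points are scalars. -/
theorem scalar_of_points {K V : Type*} [Field K] [Finite K] [AddCommGroup V] [Module K V]
    [Module.Finite K V] {B : BilinForm K V} (hB : Sm B) (h2 : (2 : K) ≠ 0)
    (hd : 5 ≤ finrank K V) {z : V →ₗ[K] V}
    (hz : ∀ v : V, v ≠ 0 → B v v = 0 → ∃ k : K, z v = k • v) : ∃ k : K, ∀ v, z v = k • v :=
  add_of_points hB h2 hd (z := z) (map_add z) hz

section Main

variable {K W : Type*} [Field K] [Finite K] [AddCommGroup W] [Module K W] [Module.Finite K W]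
  {p : ℕ} [hp : Fact p.Prime] [CharP K p] {B : BilinForm K W} (hB : Sm B)
  {X : Subgroup ((K × W × K) ≃ₗ[K] (K × W × K))} (c : Ctx p (hypo B) X)
  {T : Type*} [Group T] {π : X →* T} (h : PiC π)

include hp hB c h

/-- **Every automorphism** is induced by a semilinear similitude. -/
theorem exists_ssim_hyp (hK : 3 < Nat.card K) (hd : 5 ≤ finrank K W) (hd6 : finrank K W ≠ 6)
    (α : MulAut T) : ∃ (g : (K × W × K) ≃+ (K × W × K)) (σ : K ≃+* K) (κ : K),
    SSim (hypo B) g σ κ ∧ IndZ π α g := by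
  haveI : Finite W := Module.finite_of_finite K
  have hfin : finrank K (K × W × K) = finrank K W + 2 := by
    rw [Module.finrank_prod, Module.finrank_prod, Module.finrank_self]
    omega
  have hV := hypo_sm hB
  have h2 := c.two
  obtain ⟨t, ht1, ht2⟩ := exists_norm hB c h hd hd6 α
  obtain ⟨β, hβ⟩ : ∃ β, β = MulAut.conj t * α := ⟨_, rfl⟩
  rw [← hβ] at ht1 ht2
  obtain ⟨s, σ, κ, hκ, hs, hform, hmap, hmid⟩ := exists_maps hB c h hK hd hd6 ht1 ht2
  -- the semilinear map
  let g : (K × W × K) ≃+ (K × W × K) :=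
    { toFun := fun u => (κ * σ u.1, s u.2.1, σ u.2.2)
      invFun := fun u => (σ.symm (κ⁻¹ * u.1), s.symm u.2.1, σ.symm u.2.2)
      left_inv := by
        intro u
        refine Prod.ext ?_ (Prod.ext (s.symm_apply_apply _) (σ.symm_apply_apply _))
        change σ.symm (κ⁻¹ * (κ * σ u.1)) = u.1
        rw [inv_mul_cancel_left₀ hκ, σ.symm_apply_apply]
      right_inv := by
        intro u
        refine Prod.ext ?_ (Prod.ext (s.apply_symm_apply _) (σ.apply_symm_apply _))
        change κ * σ (σ.symm (κ⁻¹ * u.1)) = u.1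
        rw [σ.apply_symm_apply, mul_inv_cancel_left₀ hκ]
      map_add' := by
        intro u v
        refine Prod.ext ?_ (Prod.ext (map_add s _ _) (map_add σ _ _))
        change κ * σ (u.1 + v.1) = κ * σ u.1 + κ * σ v.1
        rw [map_add, mul_add] }
  have hg : ∀ u, g u = (κ * σ u.1, s u.2.1, σ u.2.2) := fun u => rfl
  have hgS : SSim (hypo B) g σ κ := by
    refine ⟨fun a v => ?_, hκ, fun u v => ?_⟩
    · rw [hg, hg]
      refine Prod.ext ?_ (Prod.ext (hs a _) (map_mul σ _ _))
      change κ * σ (a * v.1) = σ a * (κ * σ v.1)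
      rw [map_mul]
      ring
    · rw [hg, hg, hypo_apply, hypo_apply, hform, map_add, map_add, map_mul, map_mul]
      ring
  have hgs : ∀ v, hypo B v v = 0 → hypo B (g v) (g v) = 0 := by
    intro v hv
    rw [hgS.form, hv, map_zero, mul_zero]
  -- the action on the radicals
  have stepq : ∀ (y : W) (v : K × W × K), hypo B v v = 0 → Im (hypo B) π β v (g v) →
      Im (hypo B) π β ((qX B X y : (K × W × K) ≃ₗ[K] (K × W × K)) v)
        ((qX B X (s y) : (K × W × K) ≃ₗ[K] (K × W × K)) (g v)) := by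
    intro y v hv hv1 x
    rw [← RT_conj_iff' c _ (hgs v hv), ← RT_conj_iff' c _ hv, ← hmap, conj_iff_of_mem hv1]
  have stepg : ∀ (y : W) (v : K × W × K),
      g ((qX B X y : (K × W × K) ≃ₗ[K] (K × W × K)) v) =
        (qX B X (s y) : (K × W × K) ≃ₗ[K] (K × W × K)) (g v) := by
    intro y v
    rw [qX_val c, qX_val c, qo_apply, qo_apply, hg, hg]
    refine Prod.ext ?_ (Prod.ext ?_ rfl)
    · change κ * σ (v.1 - B v.2.1 y - (2⁻¹ * B y y) * v.2.2) = κ * σ v.1 - B (s v.2.1) (s y) -
        (2⁻¹ * B (s y) (s y)) * σ v.2.2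
      rw [hform, hform, map_sub, map_sub, map_mul, map_mul, map_inv₀]
      have : σ 2 = 2 := map_ofNat σ 2
      rw [this]
      ring
    · change s (v.2.1 + v.2.2 • y) = s v.2.1 + σ v.2.2 • s y
      rw [map_add, hs]
  have step2 : ∀ v : K × W × K, v ≠ 0 → hypo B v v = 0 → Im (hypo B) π β v (g v) := by
    intro v hv0 hv
    have hsm : ∀ (k : K) (w : K × W × K), k ≠ 0 → hypo B w w = 0 → v = k • w →
        Im (hypo B) π β w (g w) → Im (hypo B) π β v (g v) := by
      intro k w hk hw hvw hi x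
      rw [hvw, hgS.sl, RT_smul c ((map_ne_zero σ).mpr hk) (hgs w hw), RT_smul c hk hw]
      exact hi x
    by_cases hv2 : v.2.2 = 0
    · by_cases hv1 : v.2.1 = 0
      · -- the first point
        refine hsm v.1 (oo K W) ?_ (oo_sing B) ?_ ?_
        · intro h0
          exact hv0 (Prod.ext h0 (Prod.ext hv1 hv2))
        · refine Prod.ext (mul_one _).symm (Prod.ext ?_ ?_)
          · rw [hv1]; exact (smul_zero _).symm
          · rw [hv2]; exact (mul_zero _).symm
        · have e3 : g (oo K W) = κ • oo K W := by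
            rw [hg]
            refine Prod.ext ?_ (Prod.ext ?_ ?_)
            · change κ * σ 1 = κ * 1
              rw [map_one]
            · change s 0 = κ • (0 : W)
              rw [map_zero, smul_zero]
            · change σ 0 = κ * 0
              rw [map_zero, mul_zero]
          intro x
          rw [e3, RT_smul c hκ (oo_sing B)]
          exact ht1 x
      · -- orthogonal to the first point
        obtain ⟨y, hy⟩ : ∃ y, y = v.2.1 := ⟨_, rfl⟩
        rw [← hy] at hv1
        have hys : B y y = 0 := by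
          rw [hypo_apply, hv2, ← hy, mul_zero, zero_mul, add_zero, zero_add] at hv
          exact hv
        obtain ⟨z₀, hz₀⟩ := hB.exists_one hv1
        obtain ⟨z, hz⟩ : ∃ z, z = (-v.1) • z₀ := ⟨_, rfl⟩
        have hyz : B y z = -v.1 := by rw [hz, map_smul, hz₀, smul_eq_mul, mul_one]
        have e1 : v = (qX B X z : (K × W × K) ≃ₗ[K] (K × W × K)) ((0 : K), y, (0 : K)) := by
          rw [qX_val c, qo_apply]
          refine Prod.ext ?_ (Prod.ext ?_ hv2)
          · change v.1 = 0 - B y z - (2⁻¹ * B z z) * 0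
            rw [hyz]
            ring
          · change v.2.1 = y + (0 : K) • z
            rw [zero_smul, add_zero, hy]
        have e2 : g ((0 : K), y, (0 : K)) = ((0 : K), s y, (0 : K)) := by
          rw [hg]
          refine Prod.ext ?_ (Prod.ext rfl (map_zero σ))
          change κ * σ 0 = 0
          rw [map_zero, mul_zero]
        have e3 : hypo B ((0 : K), y, (0 : K)) ((0 : K), y, (0 : K)) = 0 := by
          rw [hypo_apply]
          change (0 : K) * 0 + 0 * 0 + B y y = 0
          rw [hys]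
          ring
        have e4 : Im (hypo B) π β ((0 : K), y, (0 : K)) (g ((0 : K), y, (0 : K))) := by
          rw [e2]
          exact hmid y hv1 hys
        rw [e1, stepg]
        exact stepq z _ e3 e4
    · -- not orthogonal to the first point
      obtain ⟨y, hy⟩ : ∃ y, y = v.2.2⁻¹ • v.2.1 := ⟨_, rfl⟩
      have hgo : g (o' K W) = o' K W := by
        rw [hg]
        refine Prod.ext ?_ (Prod.ext (map_zero s) (map_one σ))
        change κ * σ 0 = 0
        rw [map_zero, mul_zero]
      refine hsm v.2.2 ((qX B X y : (K × W × K) ≃ₗ[K] (K × W × K)) (o' K W)) hv2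
        (by rw [iso c, o'_sing]) ?_ ?_
      · rw [qX_o' c]
        refine Prod.ext ?_ (Prod.ext ?_ (mul_one _).symm)
        · change v.1 = v.2.2 * -(2⁻¹ * B y y)
          rw [hy, map_smul, map_smul, LinearMap.smul_apply, smul_eq_mul, smul_eq_mul]
          rw [hypo_apply] at hv
          field_simp
          linear_combination hv
        · change v.2.1 = v.2.2 • y
          rw [hy, smul_smul, mul_inv_cancel₀ hv2, one_smul]
      · rw [stepg, hgo]
        have h3 := stepq y (o' K W) (o'_sing B) (by rw [hgo]; exact ht2)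
        rw [hgo] at h3
        exact h3
  -- the action on the elements
  have step3 : IndZ π β g := by
    intro x z hz
    obtain ⟨y, hy⟩ := hgS.exists_conj (⟨x, c.cl.1 x.2⟩ : SpG (hypo B))
    have hy' : ∀ v, g ((x : (K × W × K) ≃ₗ[K] (K × W × K)) v) =
      (y : (K × W × K) ≃ₗ[K] (K × W × K)) (g v) := hy
    obtain ⟨k, hk⟩ := scalar_of_points (z := (((y : (K × W × K) ≃ₗ[K] (K × W × K))⁻¹ *
        (z : (K × W × K) ≃ₗ[K] (K × W × K)) : (K × W × K) ≃ₗ[K] (K × W × K)) :
        (K × W × K) →ₗ[K] (K × W × K))) hV h2 (by omega) (fun w hw0 hw => by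
      obtain ⟨v, rfl⟩ := g.surjective w
      have hv0 : v ≠ 0 := by
        rintro rfl
        rw [map_zero] at hw0
        exact hw0 rfl
      have hv : hypo B v v = 0 := by
        rw [hgS.form] at hw
        exact (map_eq_zero σ).mp ((mul_eq_zero.mp hw).resolve_left hκ)
      have hxv0 : (x : (K × W × K) ≃ₗ[K] (K × W × K)) v ≠ 0 :=
        fun h0 => hv0 (LinearEquiv.map_eq_zero_iff _ |>.mp h0)
      have hxv : hypo B ((x : (K × W × K) ≃ₗ[K] (K × W × K)) v)
          ((x : (K × W × K) ≃ₗ[K] (K × W × K)) v) = 0 := by rw [iso c, hv]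
      have hyg : hypo B ((y : (K × W × K) ≃ₗ[K] (K × W × K)) (g v))
          ((y : (K × W × K) ≃ₗ[K] (K × W × K)) (g v)) = 0 := by rw [mem_SpG.mp y.2, hw]
      have hzg : hypo B ((z : (K × W × K) ≃ₗ[K] (K × W × K)) (g v))
          ((z : (K × W × K) ≃ₗ[K] (K × W × K)) (g v)) = 0 := by rw [iso c, hw]
      obtain ⟨k, hk⟩ := RT_eq c h (by omega) (u := (y : (K × W × K) ≃ₗ[K] (K × W × K)) (g v))
        (w := (z : (K × W × K) ≃ₗ[K] (K × W × K)) (g v))
        (fun h0 => hw0 (LinearEquiv.map_eq_zero_iff _ |>.mp h0))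
        (fun h0 => hw0 (LinearEquiv.map_eq_zero_iff _ |>.mp h0)) hyg hzg (fun u hu => by
          rw [← hy'] at hu
          obtain ⟨u, rfl⟩ := β.surjective u
          rw [step2 _ hxv0 hxv, ← RT_conj_iff' c x hv, ← step2 v hv0 hv, map_mul, map_mul,
            map_inv, hz, RT_conj_iff' c z hw] at hu
          exact hu)
      refine ⟨k, ?_⟩
      change (y : (K × W × K) ≃ₗ[K] (K × W × K)).symm
        ((z : (K × W × K) ≃ₗ[K] (K × W × K)) (g v)) = k • g v
      rw [hk, map_smul, LinearEquiv.symm_apply_apply])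
    refine ⟨k, fun v => ?_⟩
    have h3 : (y : (K × W × K) ≃ₗ[K] (K × W × K)).symm
        ((z : (K × W × K) ≃ₗ[K] (K × W × K)) (g v)) = k • g v := hk (g v)
    rw [LinearEquiv.symm_apply_eq, map_smul] at h3
    rw [h3, hy']
  -- back to `α`
  obtain ⟨z, rfl⟩ := h.surj t
  refine ⟨g.trans (z : (K × W × K) ≃ₗ[K] (K × W × K)).symm.toAddEquiv, σ, κ, ?_, ?_⟩
  · refine ⟨fun a v => ?_, hκ, fun u v => ?_⟩
    · change (z : (K × W × K) ≃ₗ[K] (K × W × K)).symm (g (a • v)) =
        σ a • (z : (K × W × K) ≃ₗ[K] (K × W × K)).symm (g v)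
      rw [hgS.sl, map_smul]
    · change hypo B ((z : (K × W × K) ≃ₗ[K] (K × W × K)).symm (g u))
        ((z : (K × W × K) ≃ₗ[K] (K × W × K)).symm (g v)) = _
      rw [← hgS.form, ← iso c z, LinearEquiv.apply_symm_apply, LinearEquiv.apply_symm_apply]
  · intro x y hxy
    obtain ⟨k, hk⟩ := step3 x (z * y * z⁻¹) (by
      rw [hβ, MulAut.mul_apply, hxy, MulAut.conj_apply, map_mul, map_mul, map_inv])
    refine ⟨k, fun v => ?_⟩
    have h3 : (z : (K × W × K) ≃ₗ[K] (K × W × K)) ((y : (K × W × K) ≃ₗ[K] (K × W × K))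
      ((z : (K × W × K) ≃ₗ[K] (K × W × K)).symm (g v))) = k • g
        ((x : (K × W × K) ≃ₗ[K] (K × W × K)) v) := hk v
    change (y : (K × W × K) ≃ₗ[K] (K × W × K)) ((z : (K × W × K) ≃ₗ[K] (K × W × K)).symm (g v)) =
      k • (z : (K × W × K) ≃ₗ[K] (K × W × K)).symm (g ((x : (K × W × K) ≃ₗ[K] (K × W × K)) v))
    rw [← map_smul, ← h3, LinearEquiv.symm_apply_apply]

end Main

end Vale.Agent.P180.R2.H589.Oa
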