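import Vale.Agent.P180.R2.H589.Oa.Aut2
import Mathlib.LinearAlgebra.Matrix.BilinearForm
import Mathlib.GroupTheory.Abelianization.Defs

/-!
P180: automorphisms of orthogonal groups: general quadratic spaces, perfect quotients.
-/

set_option linter.all false

namespace Vale.Agent.P180.R2.H589.Oa

open Subgroup Module
open LinearMap (BilinForm)
open Vale.Agent.P180.R2.H589.Sch
open Vale.Agent.P180.R2.H589.Or (Sm hypo hypo_apply hypo_sm splitE splitE_iso splitE_apply BW_sm
  pr_mem Cl)
open Vale.Agent.P180.R2.H589.Sp (SpG mem_SpG WW BW BW_apply lv lv_apply lv_mul lv_one lv_inv oo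
  oo_ne finite_gl SSim o' cj cj_apply cj_mem)

section Transport

variable {K V : Type*} [Field K] [Finite K] [AddCommGroup V] [Module K V] [Module.Finite K V]
  {p : ℕ} [hp : Fact p.Prime]
  [CharP K p] {B : BilinForm K V} {X : Subgroup (V ≃ₗ[K] V)} (c : Ctx p B X)
  {T : Type*} [Group T] {π : X →* T} (h : PiC π)

include hp c h

/-- **Every automorphism** is induced by a semilinear similitude, up to scalars. -/
theorem exists_ssimZ (hK : 3 < Nat.card K) (hd : 7 ≤ finrank K V) (hd8 : finrank K V ≠ 8)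
    (α : MulAut T) : ∃ (g : V ≃+ V) (σ : K ≃+* K) (κ : K), SSim B g σ κ ∧ IndZ π α g := by
  haveI : Finite V := Module.finite_of_finite K
  have hB := c.sm
  obtain ⟨o, ho, ho0⟩ := exists_sing hB c.two (by omega : 3 ≤ finrank K V)
  obtain ⟨o', h1, ho'⟩ := hB.exists_pair c.two ho ho0
  have he := splitE_iso hB ho0 ho' h1
  have hBW := BW_sm hB ho0 ho' h1
  obtain ⟨e, hee⟩ : ∃ e, e = splitE hB ho0 ho' h1 := ⟨_, rfl⟩
  rw [← hee] at he
  have hfin : finrank K V = finrank K (WW B o o') + 2 := by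
    have h5 := e.finrank_eq
    rw [Module.finrank_prod, Module.finrank_prod, Module.finrank_self] at h5
    omega
  let X' := X.comap (cj e).toMonoidHom
  let eX : X' ≃* X :=
    { toFun := fun g => ⟨cj e g, g.2⟩
      invFun := fun g => ⟨(cj e).symm g, by
        change cj e ((cj e).symm (g : V ≃ₗ[K] V)) ∈ X
        rw [MulEquiv.apply_symm_apply]
        exact g.2⟩
      left_inv := fun g => Subtype.ext ((cj e).symm_apply_apply g)
      right_inv := fun g => Subtype.ext ((cj e).apply_symm_apply g)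
      map_mul' := fun g h => Subtype.ext (map_mul (cj e) (g : _ ≃ₗ[K] _) (h : _ ≃ₗ[K] _)) }
  have heX : ∀ (x : X') v, (eX x : V ≃ₗ[K] V) (e v) =
      e ((x : (K × WW B o o' × K) ≃ₗ[K] (K × WW B o o' × K)) v) := by
    intro x v
    change cj e (x : (K × WW B o o' × K) ≃ₗ[K] (K × WW B o o' × K)) (e v) = _
    rw [cj_apply, e.symm_apply_apply]
  have c' : Ctx p (hypo (BW B o o')) X' := by
    refine ⟨hypo_sm hBW, c.two, c.odd, fun g hg => ?_, fun g hg hd => ?_⟩
    · exact (cj_mem he).mp (c.cl.1 hg)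
    · change cj e (g ^ 2) ∈ X
      rw [map_pow]
      refine c.cl.2 _ ((cj_mem he).mpr hg) ?_
      rw [← hd]
      exact LinearEquiv.det_conj g e
  have h' : PiC (π.comp eX.toMonoidHom) := by
    refine ⟨h.surj.comp eX.surjective, fun x => ?_⟩
    change π (eX x) = 1 ↔ _
    rw [h.ker]
    constructor
    · rintro ⟨a, ha⟩
      refine ⟨a, fun v => ?_⟩
      apply e.injective
      rw [← heX, ha, map_smul]
    · rintro ⟨a, ha⟩
      refine ⟨a, fun v => ?_⟩
      obtain ⟨v, rfl⟩ := e.surjective v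
      rw [heX, ha, map_smul]
  obtain ⟨g, σ, κ, hg, hind⟩ := exists_ssim_hyp hBW c' h' hK (by omega) (by omega) α
  refine ⟨(e.symm.toAddEquiv.trans g).trans e.toAddEquiv, σ, κ, ⟨fun a v => ?_, hg.ne,
    fun u v => ?_⟩, fun x z hxz => ?_⟩
  · change e (g (e.symm (a • v))) = σ a • e (g (e.symm v))
    rw [map_smul, hg.sl, map_smul]
  · change B (e (g (e.symm u))) (e (g (e.symm v))) = _
    rw [he, hg.form, ← he, e.apply_symm_apply, e.apply_symm_apply]
  · obtain ⟨x, rfl⟩ := eX.surjective x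
    obtain ⟨z, rfl⟩ := eX.surjective z
    obtain ⟨k, hk⟩ := hind x z hxz
    refine ⟨k, fun v => ?_⟩
    obtain ⟨v, rfl⟩ := e.surjective v
    change (eX z : V ≃ₗ[K] V) (e (g (e.symm (e v)))) = k • e (g (e.symm ((eX x : V ≃ₗ[K] V) (e v))))
    rw [heX, heX, e.symm_apply_apply, e.symm_apply_apply, hk, map_smul]

end Transport

/-- `α` is induced by `g` -/
def IndY {K V : Type*} [Field K] [AddCommGroup V] [Module K V] {X : Subgroup (V ≃ₗ[K] V)}
    {T : Type*} [Group T] (π : X →* T) (α : MulAut T) (g : V ≃+ V) : Prop :=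
  ∀ x : X, ∃ y : X, (∀ v, g ((x : V ≃ₗ[K] V) v) = (y : V ≃ₗ[K] V) (g v)) ∧ α (π x) = π y

section IndY

variable {K V : Type*} [Field K] [AddCommGroup V] [Module K V] {p : ℕ} [hp : Fact p.Prime]
  [CharP K p] {B : BilinForm K V} {X : Subgroup (V ≃ₗ[K] V)} (c : Ctx p B X)
  {T : Type*} [Group T] {π : X →* T} (h : PiC π)

include c h

include hp in
/-- **Perfect quotients**: no scalars are necessary. -/
theorem indY_of_indZ (hT : commutator T = ⊤) (hV : ∃ v : V, v ≠ 0) {g : V ≃+ V} {σ : K ≃+* K}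
    {κ : K} (hg : SSim B g σ κ) {α : MulAut T} (hi : IndZ π α g) : IndY π α g := by
  obtain ⟨v₀, hv₀⟩ := hV
  obtain ⟨w₀, hw₀⟩ := c.sm.exists_one hv₀
  have key : ∀ x : X, ∃ (z : X) (k : K), α (π x) = π z ∧ (k = 1 ∨ k = -1) ∧
      ∀ v, (z : V ≃ₗ[K] V) (g v) = k • g ((x : V ≃ₗ[K] V) v) := by
    intro x
    obtain ⟨z, hz⟩ := h.surj (α (π x))
    obtain ⟨k, hk⟩ := hi x z hz.symm
    refine ⟨z, k, hz.symm, ?_, hk⟩
    have h1 := iso c z (g v₀) (g w₀)
    rw [hk, hk, map_smul, map_smul, LinearMap.smul_apply, hg.form, hg.form, iso c, hw₀, map_one,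
      smul_eq_mul, smul_eq_mul, mul_one] at h1
    have h3 : k * k = 1 := mul_right_cancel₀ hg.ne (by rw [one_mul]; linear_combination h1)
    exact mul_self_eq_one_iff.mp h3
  by_cases hneg : ∃ s : X, ∀ v, (s : V ≃ₗ[K] V) v = (-1 : K) • v
  · obtain ⟨s, hs⟩ := hneg
    intro x
    obtain ⟨z, k, hz, hk, hzk⟩ := key x
    rcases hk with rfl | rfl
    · exact ⟨z, fun v => by rw [hzk, one_smul], hz⟩
    · refine ⟨s * z, fun v => ?_, ?_⟩
      · rw [Subgroup.coe_mul, LinearEquiv.mul_apply, hs, hzk, smul_smul, neg_one_mul, neg_neg,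
          one_smul]
      · rw [map_mul, (h.ker s).mpr ⟨_, hs⟩, one_mul, hz]
  · have hinj : Function.Injective π := by
      rw [← MonoidHom.ker_eq_bot_iff, eq_bot_iff]
      intro x hx
      obtain ⟨a, ha⟩ := (h.ker x).mp hx
      have h1 := iso c x v₀ w₀
      rw [ha, ha, map_smul, map_smul, LinearMap.smul_apply, hw₀, smul_eq_mul, smul_eq_mul,
        mul_one] at h1
      rcases mul_self_eq_one_iff.mp h1 with rfl | rfl
      · rw [mem_bot]
        apply ext_X
        intro v
        rw [ha, one_smul]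
        rfl
      · exact absurd ⟨x, ha⟩ hneg
    have hX : commutator X = ⊤ := by
      have h1 : (commutator X).map π = ⊤ := by
        rw [_root_.commutator_def, map_commutator, ← MonoidHom.range_eq_map,
          MonoidHom.range_eq_top.mpr h.surj, ← _root_.commutator_def, hT]
      rw [eq_top_iff]
      intro x _
      obtain ⟨y, hy, hyx⟩ : π x ∈ (commutator X).map π := by rw [h1]; exact mem_top _
      rw [← hinj hyx]
      exact hy
    choose zf kf hz hk hzk using key
    have hzmul : ∀ x x', zf (x * x') = zf x * zf x' := by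
      intro x x'
      apply hinj
      rw [← hz, map_mul, map_mul, map_mul, hz, hz]
    have hkmul : ∀ x x', kf (x * x') = kf x * kf x' := by
      intro x x'
      have h1 := hzk (x * x') v₀
      rw [hzmul, Subgroup.coe_mul, LinearEquiv.mul_apply, hzk x', map_smul, hzk x,
        Subgroup.coe_mul, LinearEquiv.mul_apply, smul_smul] at h1
      have h3 : g ((x : V ≃ₗ[K] V) ((x' : V ≃ₗ[K] V) v₀)) ≠ 0 := by
        intro h4
        have h5 := g.map_eq_zero_iff.mp h4
        have h6 := (x : V ≃ₗ[K] V).map_eq_zero_iff.mp h5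
        exact hv₀ ((x' : V ≃ₗ[K] V).map_eq_zero_iff.mp h6)
      have h4 := smul_left_injective K h3 h1
      change kf x' * kf x = kf (x * x') at h4
      rw [← h4, mul_comm]
    have hk1 : kf 1 = 1 := by
      have h1 := hkmul 1 1
      rw [mul_one] at h1
      have h3 : kf 1 ≠ 0 := by
        rcases hk 1 with h4 | h4
        · rw [h4]; exact one_ne_zero
        · rw [h4]; exact neg_ne_zero.mpr one_ne_zero
      exact (mul_right_cancel₀ h3 (by rw [one_mul]; exact h1)).symm
    let χ : X →* Kˣ := MonoidHom.toHomUnits { toFun := kf, map_one' := hk1, map_mul' := hkmul }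
    have hχ : ∀ x, ((χ x : Kˣ) : K) = kf x := fun x => rfl
    intro x
    refine ⟨zf x, fun v => ?_, hz x⟩
    have h1 : χ x = 1 := by
      have h3 : x ∈ commutator X := by rw [hX]; exact mem_top _
      exact Abelianization.commutator_subset_ker χ h3
    rw [hzk, ← hχ, h1, Units.val_one, one_smul]

variable {g g' : V ≃+ V} {σ τ : K ≃+* K} {κ μ : K} {α β : MulAut T}

omit hp [CharP K p] in
omit c h in
theorem IndY.mul (h1 : IndY π α g) (h2 : IndY π β g') : IndY π (α * β) (g'.trans g) := by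
  intro x
  obtain ⟨y, hy, hy'⟩ := h2 x
  obtain ⟨z, hz, hz'⟩ := h1 y
  refine ⟨z, fun v => ?_, ?_⟩
  · change g (g' ((x : V ≃ₗ[K] V) v)) = (z : V ≃ₗ[K] V) (g (g' v))
    rw [hy, hz]
  · rw [MulAut.mul_apply, hy', hz']

omit hp [CharP K p] in
omit c h in
theorem IndY.inv [Finite X] (h1 : IndY π α g) : IndY π α⁻¹ g.symm := by
  choose f hf hf' using h1
  have hinj : Function.Injective f := by
    intro x y hxy
    apply ext_X
    intro v
    apply g.injective
    rw [hf, hf, hxy]
  intro x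
  obtain ⟨y, rfl⟩ := (Finite.injective_iff_surjective.mp hinj) x
  refine ⟨y, fun v => ?_, ?_⟩
  · obtain ⟨v, rfl⟩ := g.surjective v
    rw [← hf, g.symm_apply_apply, g.symm_apply_apply]
  · rw [← hf', MulAut.inv_apply_self]

omit hp [CharP K p] in
omit c in
/-- inner automorphisms -/
theorem IndY.inner (h1 : IndY π α g) {z : X} {a : K} (ha : a ≠ 0)
    (hz : ∀ v, g v = a • (z : V ≃ₗ[K] V) v) : α ∈ (MulAut.conj : T →* MulAut T).range := by
  refine ⟨π z, ?_⟩
  ext t
  obtain ⟨x, rfl⟩ := h.surj t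
  obtain ⟨y, hy, hy'⟩ := h1 x
  rw [hy', MulAut.conj_apply, ← map_inv, ← map_mul, ← map_mul]
  congr 1
  rw [mul_inv_eq_iff_eq_mul]
  apply ext_X
  intro v
  have h3 := hy v
  rw [hz, hz, map_smul] at h3
  exact smul_right_injective V ha h3

omit hp [CharP K p] in
omit c h in
theorem indY_one : IndY π 1 (AddEquiv.refl V) := fun x => ⟨x, fun v => rfl, rfl⟩

end IndY

section Det

variable {K V : Type*} [Field K] [AddCommGroup V] [Module K V] [Module.Finite K V]
  {B : BilinForm K V}

/-- The determinant of an isometry. -/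
theorem det_sq (hB : Sm B) {g : V ≃ₗ[K] V} (hg : g ∈ SpG B) : (LinearEquiv.det g) ^ 2 = 1 := by
  classical
  let b := Module.finBasis K V
  have h1 : B.comp (g : V →ₗ[K] V) (g : V →ₗ[K] V) = B := by
    ext x y
    exact mem_SpG.mp hg x y
  have h3 := LinearMap.BilinForm.toMatrix_comp b b B (g : V →ₗ[K] V) (g : V →ₗ[K] V)
  rw [h1] at h3
  have h4 := congrArg Matrix.det h3
  rw [Matrix.det_mul, Matrix.det_mul, Matrix.det_transpose, LinearMap.det_toMatrix] at h4
  have h5 := (LinearMap.BilinForm.nondegenerate_iff_det_ne_zero b).mp (nondeg hB)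
  apply Units.ext
  rw [Units.val_pow_eq_pow_val, Units.val_one]
  have h6 : ((LinearEquiv.det g : Kˣ) : K) = LinearMap.det (g : V →ₗ[K] V) :=
    LinearEquiv.coe_det g
  rw [h6]
  refine mul_right_cancel₀ h5 ?_
  rw [one_mul]
  nth_rewrite 2 [h4]
  ring

end Det

end Vale.Agent.P180.R2.H589.Oa
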