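import Vale.Agent.P180.R2.H589.Oa.Aut3
import Vale.Agent.P180.R2.H589.Sp.Au5
import Vale.Agent.P180.R2.H589.Or.Fin

/-!
P180: orthogonal groups in odd characteristic, dimension at least seven and not eight: semilinear
similitudes, the derived series of the automorphism group, automorphisms of odd order prime to
`|Aut K|`.
-/

set_option linter.all false

namespace Vale.Agent.P180.R2.H589.Oa

open Subgroup Module
open LinearMap (BilinForm)
open Vale.Agent.P180.R2.H589.Sch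
open Vale.Agent.P180.R2.H589.Or (Sm Cl mkB)
open Vale.Agent.P180.R2.H589.Sp (SpG mem_SpG finite_gl SSim ringEquiv_comm)

section IndL

variable {K V : Type*} [Field K] [AddCommGroup V] [Module K V]
  {B : BilinForm K V} {X : Subgroup (V ≃ₗ[K] V)} {T : Type*} [Group T] {π : X →* T}

/-- `α` is induced by the linear map `z` -/
def IndL (π : X →* T) (α : MulAut T) (z : V ≃ₗ[K] V) : Prop :=
  ∀ x : X, ∃ y : X, z * (x : V ≃ₗ[K] V) = (y : V ≃ₗ[K] V) * z ∧ α (π x) = π y

variable {α β : MulAut T} {z w : V ≃ₗ[K] V}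

theorem IndL.mul (h1 : IndL π α z) (h2 : IndL π β w) : IndL π (α * β) (z * w) := by
  intro x
  obtain ⟨y, hy, hy'⟩ := h2 x
  obtain ⟨u, hu, hu'⟩ := h1 y
  refine ⟨u, ?_, ?_⟩
  · rw [mul_assoc, hy, ← mul_assoc, hu, mul_assoc]
  · rw [MulAut.mul_apply, hy', hu']

theorem IndL.inv [Finite X] (h1 : IndL π α z) : IndL π α⁻¹ z⁻¹ := by
  choose f hf hf' using h1
  have hinj : Function.Injective f := by
    intro x y hxy
    apply Subtype.ext
    have h3 := hf x
    rw [hxy, ← hf y] at h3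
    exact mul_left_cancel h3
  intro x
  obtain ⟨y, rfl⟩ := (Finite.injective_iff_surjective.mp hinj) x
  refine ⟨y, ?_, ?_⟩
  · rw [inv_mul_eq_iff_eq_mul, ← mul_assoc, hf, mul_inv_cancel_right]
  · rw [← hf', MulAut.inv_apply_self]

theorem IndL.inner (h : PiC π) (h1 : IndL π α z) (hz : z ∈ X) :
    α ∈ (MulAut.conj : T →* MulAut T).range := by
  refine ⟨π ⟨z, hz⟩, ?_⟩
  ext t
  obtain ⟨x, rfl⟩ := h.surj t
  obtain ⟨y, hy, hy'⟩ := h1 x
  rw [hy', MulAut.conj_apply, ← map_inv, ← map_mul, ← map_mul]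
  congr 1
  rw [mul_inv_eq_iff_eq_mul]
  exact Subtype.ext hy

theorem IndL.pow (h1 : IndL π α z) (n : ℕ) : IndL π (α ^ n) (z ^ n) := by
  induction n with
  | zero => exact fun x => ⟨x, by rw [pow_zero, one_mul, mul_one], rfl⟩
  | succ n ih =>
    rw [pow_succ, pow_succ]
    exact ih.mul h1

/-- the linear map -/
theorem exists_linear {g : V ≃+ V} {κ : K} (hg : SSim B g (RingEquiv.refl K) κ)
    (h1 : IndY π α g) : ∃ z : V ≃ₗ[K] V, (∀ v, z v = g v) ∧ IndL π α z := by
  let z : V ≃ₗ[K] V :=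
    { toFun := g
      map_add' := map_add g
      map_smul' := hg.sl
      invFun := g.symm
      left_inv := g.symm_apply_apply
      right_inv := g.apply_symm_apply }
  have hz : ∀ v, z v = g v := fun v => rfl
  refine ⟨z, hz, fun x => ?_⟩
  obtain ⟨y, hy, hy'⟩ := h1 x
  refine ⟨y, LinearEquiv.ext fun v => ?_, hy'⟩
  rw [LinearEquiv.mul_apply, LinearEquiv.mul_apply, hz, hz, hy]

/-- multipliers -/
def Mu (B : BilinForm K V) (z : V ≃ₗ[K] V) (κ : K) : Prop := ∀ u v, B (z u) (z v) = κ * B u v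

theorem Mu.mul {κ μ : K} (h1 : Mu B z κ) (h2 : Mu B w μ) : Mu B (z * w) (κ * μ) := by
  intro u v
  rw [LinearEquiv.mul_apply, LinearEquiv.mul_apply, h1, h2, mul_assoc]

theorem Mu.inv {κ : K} (hκ : κ ≠ 0) (h1 : Mu B z κ) : Mu B z⁻¹ κ⁻¹ := by
  intro u v
  have h3 : ∀ v, z (z⁻¹ v) = v := z.apply_symm_apply
  have h4 := h1 (z⁻¹ u) (z⁻¹ v)
  rw [h3, h3] at h4
  rw [h4, inv_mul_cancel_left₀ hκ]

end IndL

section Der

variable {K V : Type*} [Field K] [Finite K] [AddCommGroup V] [Module K V] [Finite V]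
  {B : BilinForm K V} {X : Subgroup (V ≃ₗ[K] V)} {T : Type*} [Group T] {π : X →* T}

/-- the automorphisms induced by linear similitudes -/
def LinO (B : BilinForm K V) (π : X →* T) : Subgroup (MulAut T) where
  carrier := {α | ∃ (z : V ≃ₗ[K] V) (κ : K), κ ≠ 0 ∧ Mu B z κ ∧ IndL π α z}
  one_mem' := ⟨1, 1, one_ne_zero, fun u v => (one_mul _).symm,
    fun x => ⟨x, by rw [one_mul, mul_one], rfl⟩⟩
  mul_mem' := by
    rintro α β ⟨z, κ, h1, h2, h3⟩ ⟨w, μ, h4, h5, h6⟩
    exact ⟨z * w, κ * μ, mul_ne_zero h1 h4, h2.mul h5, h3.mul h6⟩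
  inv_mem' := by
    haveI : Finite (V ≃ₗ[K] V) := finite_gl
    rintro α ⟨z, κ, h1, h2, h3⟩
    exact ⟨z⁻¹, κ⁻¹, inv_ne_zero h1, h2.inv h1, h3.inv⟩

/-- the automorphisms induced by isometries of determinant one -/
def SoO (B : BilinForm K V) (π : X →* T) : Subgroup (MulAut T) where
  carrier := {α | ∃ z : V ≃ₗ[K] V, z ∈ SpG B ∧ LinearEquiv.det z = 1 ∧ IndL π α z}
  one_mem' := ⟨1, Subgroup.one_mem _, map_one _,
    fun x => ⟨x, by rw [one_mul, mul_one], rfl⟩⟩
  mul_mem' := by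
    rintro α β ⟨z, h1, h2, h3⟩ ⟨w, h4, h5, h6⟩
    exact ⟨z * w, Subgroup.mul_mem _ h1 h4, by rw [map_mul, h2, h5, one_mul], h3.mul h6⟩
  inv_mem' := by
    haveI : Finite (V ≃ₗ[K] V) := finite_gl
    rintro α ⟨z, h1, h2, h3⟩
    exact ⟨z⁻¹, Subgroup.inv_mem _ h1, by rw [map_inv, h2, inv_one], h3.inv⟩

open scoped commutatorElement in
/-- **The outer automorphism group is solvable.** -/
theorem derived_le_O (h : PiC π)
    (hcom : ∀ z w : V ≃ₗ[K] V, z ∈ SpG B → w ∈ SpG B → LinearEquiv.det z = 1 →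
      LinearEquiv.det w = 1 → z * w * z⁻¹ * w⁻¹ ∈ X)
    (H : ∀ α : MulAut T, ∃ (g : V ≃+ V) (σ : K ≃+* K) (κ : K), SSim B g σ κ ∧ IndY π α g) :
    derivedSeries (MulAut T) 3 ≤ (MulAut.conj : T →* MulAut T).range := by
  haveI : Finite (V ≃ₗ[K] V) := finite_gl
  have d1 : derivedSeries (MulAut T) 1 ≤ LinO B π := by
    rw [derivedSeries_succ, derivedSeries_zero, commutator_le]
    intro α _ β _
    obtain ⟨g, σ, κ, hg, h1⟩ := H α
    obtain ⟨g', τ, μ, hh, h2⟩ := H β
    have h3 := (hg.mul (hh.mul (hg.inv.mul hh.inv)))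
    have h4 := h1.mul (h2.mul (h1.inv.mul h2.inv))
    have h5 : (((τ.symm.trans σ.symm).trans τ).trans σ) = RingEquiv.refl K := by
      ext a
      change σ (τ (σ.symm (τ.symm a))) = a
      rw [ringEquiv_comm τ σ.symm, σ.apply_symm_apply, τ.apply_symm_apply]
    rw [h5] at h3
    have h6 : ⁅α, β⁆ = α * (β * (α⁻¹ * β⁻¹)) := by
      rw [commutatorElement_def]
      group
    rw [h6]
    obtain ⟨z, hz, hzi⟩ := exists_linear h3 h4
    refine ⟨z, _, h3.ne, fun u v => ?_, hzi⟩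
    rw [hz, hz]
    exact h3.form u v
  have d2 : derivedSeries (MulAut T) 2 ≤ SoO B π := by
    rw [derivedSeries_succ, commutator_le]
    intro α hα β hβ
    obtain ⟨z, κ, h1, h2, h3⟩ := d1 hα
    obtain ⟨w, μ, h4, h5, h6⟩ := d1 hβ
    rw [commutatorElement_def]
    refine ⟨z * w * z⁻¹ * w⁻¹, fun u v => ?_, ?_, ((h3.mul h6).mul h3.inv).mul h6.inv⟩
    · rw [((h2.mul h5).mul (h2.inv h1)).mul (h5.inv h4)]
      have h7 : κ * μ * κ⁻¹ * μ⁻¹ = 1 := by field_simp
      rw [h7, one_mul]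
    · rw [map_mul, map_mul, map_mul, map_inv, map_inv, mul_comm (LinearEquiv.det z),
        mul_inv_cancel_right, mul_inv_cancel]
  rw [derivedSeries_succ, commutator_le]
  intro α hα β hβ
  obtain ⟨z, h1, h2, h3⟩ := d2 hα
  obtain ⟨w, h4, h5, h6⟩ := d2 hβ
  rw [commutatorElement_def]
  exact (((h3.mul h6).mul h3.inv).mul h6.inv).inner h (hcom z w h1 h4 h2 h5)

end Der

section Cop

variable {K V : Type*} [Field K] [Finite K] [AddCommGroup V] [Module K V] [Module.Finite K V]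
  {p : ℕ} [hp : Fact p.Prime]
  [CharP K p] {B : BilinForm K V} {X : Subgroup (V ≃ₗ[K] V)} (c : Ctx p B X)
  {T : Type*} [Group T] {π : X →* T} (h : PiC π)

include hp c h

/-- A semilinear similitude which induces the identity is a scalar. -/
theorem refl_of_indY (hd : 5 ≤ finrank K V) {g : V ≃+ V} {σ : K ≃+* K} {κ : K}
    (hg : SSim B g σ κ) (hi : IndY π 1 g) : σ = RingEquiv.refl K := by
  haveI : Finite V := Module.finite_of_finite K
  have hB := c.sm
  have h1 : ∀ u : V, u ≠ 0 → B u u = 0 → ∃ k : K, g u = k • u := by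
    intro u hu0 hu
    obtain ⟨y, hy, hyy⟩ := exists_nonsing hB c.two (by omega) hu0 hu
    obtain ⟨x', hx', hx''⟩ := hi (rX B X u y)
    have hpx : Pel p x' := by
      obtain ⟨n, hn⟩ := rX_pel c (X := X) hu hy
      refine ⟨n, ext_X fun v => ?_⟩
      obtain ⟨v, rfl⟩ := g.surjective v
      have key : ∀ i : ℕ, ((x' ^ i : X) : V ≃ₗ[K] V) (g v) =
          g (((rX B X u y ^ i : X) : V ≃ₗ[K] V) v) := by
        intro i
        induction i with
        | zero => rfl
        | succ i ih =>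
          rw [pow_succ', pow_succ', Subgroup.coe_mul, Subgroup.coe_mul, LinearEquiv.mul_apply,
            LinearEquiv.mul_apply, ih, hx']
      rw [key, hn]
      rfl
    have hxx : rX B X u y = x' := pel_inj h (rX_pel c hu hy) hpx hx''
    rw [← hxx] at hx'
    have e1 := hx' y
    rw [rX_apply c hu hy, rX_apply c hu hy, rl_apply, rl_apply, hB.symm u y, hy, mul_zero,
      add_zero, zero_smul, add_zero, map_sub, hg.sl] at e1
    obtain ⟨b, hb⟩ : ∃ b, b = B (g y) u := ⟨_, rfl⟩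
    obtain ⟨a, ha⟩ : ∃ a, a = B (g y) y + 2⁻¹ * B y y * B (g y) u := ⟨_, rfl⟩
    rw [← ha, ← hb] at e1
    have hs0 : σ (B y y) ≠ 0 := (map_ne_zero σ).mpr hyy
    have e2 : g u = (σ (B y y))⁻¹ • (a • u - b • y) := by
      have e3 : σ (B y y) • g u = a • u - b • y := by
        have e4 : g y - σ (B y y) • g u - (g y + b • y - a • u) = 0 := by rw [e1, sub_self]
        have e5 : σ (B y y) • g u = a • u - b • y - (g y - σ (B y y) • g u -
          (g y + b • y - a • u)) := by abel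
        rw [e5, e4, sub_zero]
      rw [← e3, smul_smul, inv_mul_cancel₀ hs0, one_smul]
    have e3 : B (g u) (g u) = 0 := by rw [hg.form, hu, map_zero, mul_zero]
    have e4 : b = 0 := by
      rw [e2] at e3
      simp only [map_sub, map_smul, LinearMap.sub_apply, LinearMap.smul_apply, smul_eq_mul, hu,
        hy, hB.symm u y, mul_zero, sub_zero, zero_sub] at e3
      have e5 : (σ (B y y))⁻¹ * (σ (B y y))⁻¹ * (b * b) * B y y = 0 := by linear_combination e3
      have e6 := (mul_eq_zero.mp e5).resolve_right hyy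
      have e7 := (mul_eq_zero.mp e6).resolve_left (mul_ne_zero (inv_ne_zero hs0)
        (inv_ne_zero hs0))
      exact mul_self_eq_zero.mp e7
    refine ⟨(σ (B y y))⁻¹ * a, ?_⟩
    rw [e2, e4, zero_smul, sub_zero, smul_smul]
  obtain ⟨k, hk⟩ := add_of_points hB c.two hd (z := g) (map_add g) h1
  obtain ⟨v, hv0, -⟩ := exists_sing hB c.two (by omega : 3 ≤ finrank K V)
  have hk0 : k ≠ 0 := by
    rintro rfl
    have h3 := hk v
    rw [zero_smul] at h3
    exact hv0 (g.map_eq_zero_iff.mp h3)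
  ext a
  have h3 := hg.sl a v
  rw [hk, hk, smul_smul, smul_smul] at h3
  have h4 := smul_left_injective K hv0 h3
  change k * a = σ a * k at h4
  rw [mul_comm] at h4
  exact (mul_right_cancel₀ hk0 h4).symm

/-- **Automorphisms of odd order prime to `|Aut K|` are inner.** -/
theorem inner_of_coprime (hd : 5 ≤ finrank K V)
    (H : ∀ α : MulAut T, ∃ (g : V ≃+ V) (σ : K ≃+* K) (κ : K), SSim B g σ κ ∧ IndY π α g)
    {α : MulAut T} {m : ℕ} (hm : Odd m) (hc : m.Coprime (Nat.card (K ≃+* K))) (hα : α ^ m = 1) :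
    α ∈ (MulAut.conj : T →* MulAut T).range := by
  obtain ⟨g, σ, κ, hg, h1⟩ := H α
  have hpow : ∀ n : ℕ, ∃ (g' : V ≃+ V) (κ' : K), SSim B g' ((σ : RingAut K) ^ n) κ' ∧
      IndY π (α ^ n) g' := by
    intro n
    induction n with
    | zero =>
      refine ⟨AddEquiv.refl V, 1, ⟨fun c v => rfl, one_ne_zero, fun u v => (one_mul _).symm⟩, ?_⟩
      rw [pow_zero]
      exact indY_one
    | succ n ih =>
      obtain ⟨g', κ', h2, h3⟩ := ih
      refine ⟨g.trans g', κ' * ((σ : RingAut K) ^ n) κ, ?_, ?_⟩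
      · have h4 := h2.mul hg
        rw [pow_succ]
        exact h4
      · rw [pow_succ]
        exact h3.mul h1
  obtain ⟨g', κ', h2, h3⟩ := hpow m
  rw [hα] at h3
  have h4 : ((σ : RingAut K) ^ m) = 1 := refl_of_indY c h hd h2 h3
  haveI : Finite (RingAut K) := Finite.of_injective (fun e : K ≃+* K => (e : K → K))
    (fun e e' h => RingEquiv.ext (congrFun h))
  have h5 : (σ : RingAut K) = 1 := by
    have h6 := orderOf_dvd_of_pow_eq_one h4
    have h7 : orderOf (σ : RingAut K) ∣ Nat.card (RingAut K) := orderOf_dvd_natCard _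
    have h8 := Nat.eq_one_of_dvd_coprimes hc h6 h7
    exact orderOf_eq_one_iff.mp h8
  have h6 : σ = RingEquiv.refl K := h5
  subst h6
  obtain ⟨z, hz, hzi⟩ := exists_linear hg h1
  have hzm : Mu B z κ := by
    intro u v
    rw [hz, hz]
    exact hg.form u v
  -- the isometry
  obtain ⟨s, hs⟩ : ∃ s : V ≃ₗ[K] V, ∀ v, s v = κ⁻¹ • v :=
    ⟨LinearEquiv.smulOfNeZero K V κ⁻¹ (inv_ne_zero hg.ne), fun v => rfl⟩
  obtain ⟨w, hw⟩ : ∃ w, w = s * (z * z) := ⟨_, rfl⟩
  have hwv : ∀ v, w v = κ⁻¹ • (z * z) v := by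
    intro v
    rw [hw, LinearEquiv.mul_apply, hs]
  have hw1 : w ∈ SpG B := by
    intro u v
    rw [hwv, hwv, map_smul, map_smul, LinearMap.smul_apply, hzm.mul hzm, smul_eq_mul,
      smul_eq_mul]
    have := hg.ne
    field_simp
  have hw2 : IndL π (α * α) w := by
    intro x
    obtain ⟨y, hy, hy'⟩ := (hzi.mul hzi) x
    refine ⟨y, LinearEquiv.ext fun v => ?_, hy'⟩
    rw [LinearEquiv.mul_apply, LinearEquiv.mul_apply, hwv, hwv, map_smul]
    congr 1
    exact congrArg (fun e : V ≃ₗ[K] V => e v) hy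
  have hw3 : (w * w) ^ 2 ∈ X := c.cl.2 _ (Subgroup.mul_mem _ hw1 hw1) (by
    rw [map_mul, ← pow_two, det_sq c.sm hw1])
  have h7 : (α * α * (α * α)) ^ 2 ∈ (MulAut.conj : T →* MulAut T).range :=
    ((hw2.mul hw2).pow 2).inner h hw3
  obtain ⟨j, hj⟩ := hm
  have h8 : α = ((α * α * (α * α)) ^ 2) ^ ((j + 1) ^ 3) := by
    have h9 : (α * α * (α * α)) ^ 2 = α ^ 8 := by
      rw [← pow_two, ← pow_two, ← pow_mul, ← pow_mul]
    have h10 : 8 * (j + 1) ^ 3 = m * (m * m + 3 * m + 3) + 1 := by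
      rw [hj]
      ring
    rw [h9, ← pow_mul, h10, pow_succ, pow_mul, hα, one_pow, one_mul]
  rw [h8]
  exact Subgroup.pow_mem _ h7 _

end Cop

end Vale.Agent.P180.R2.H589.Oa
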