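import Vale.Agent.P180.R2.H589.Or.Chr
import Vale.Agent.P180.R2.H589.Sp.Au1
import Mathlib.FieldTheory.Finite.Basic
import Mathlib.LinearAlgebra.FiniteDimensional.Lemmas

/-!
P180: automorphisms of orthogonal groups: singular vectors.
-/

set_option linter.all false

namespace Vale.Agent.P180.R2.H589.Oa

open Subgroup Module
open LinearMap (BilinForm)
open Vale.Agent.P180.R2.H589.Sch
open Vale.Agent.P180.R2.H589.Or (Sm hypo hypo_apply hypo_sm splitE splitE_iso splitE_apply BW_sm
  pr_mem Cl)
open Vale.Agent.P180.R2.H589.Sp (SpG mem_SpG WW BW BW_apply lv lv_apply lv_mul lv_one lv_inv oo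
  oo_ne)

section Lin

variable {K V : Type*} [Field K] [AddCommGroup V] [Module K V] {B : BilinForm K V} (hB : Sm B)
  (h2 : (2 : K) ≠ 0)

include hB

/-- double orthogonal of a line -/
theorem exists_smul_of_perp {a b : V} (ha : a ≠ 0) (h : ∀ z, B z a = 0 → B z b = 0) :
    ∃ k : K, b = k • a := by
  obtain ⟨y, hy⟩ := hB.exists_one ha
  have h1 : B y a = 1 := by rw [hB.symm, hy]
  refine ⟨B y b, ?_⟩
  have h2 : b - B y b • a = 0 := by
    apply hB.nd
    intro z
    have h3 : B (z - B z a • y) a = 0 := by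
      rw [map_sub, map_smul, LinearMap.sub_apply, LinearMap.smul_apply, h1, smul_eq_mul, mul_one,
        sub_self]
    have h4 := h _ h3
    rw [map_sub, map_smul, LinearMap.sub_apply, LinearMap.smul_apply, smul_eq_mul] at h4
    rw [hB.symm z, map_sub, map_smul, smul_eq_mul]
    linear_combination h4
  exact sub_eq_zero.mp h2

theorem exists_dual {u w : V} (hu : u ≠ 0) (hw : ∀ k : K, w ≠ k • u) :
    ∃ z, B z u = 0 ∧ B z w = 1 := by
  obtain ⟨z, h1, h3⟩ : ∃ z, B z u = 0 ∧ B z w ≠ 0 := by
    by_contra hcon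
    push Not at hcon
    obtain ⟨k, hk⟩ := exists_smul_of_perp hB hu hcon
    exact hw k hk
  refine ⟨(B z w)⁻¹ • z, ?_, ?_⟩
  · rw [map_smul, LinearMap.smul_apply, h1, smul_zero]
  · rw [map_smul, LinearMap.smul_apply, smul_eq_mul, inv_mul_cancel₀ h3]

theorem exists_one_one {u w : V} (hu : u ≠ 0) (hw : ∀ k : K, w ≠ k • u) :
    ∃ z, B z u = 1 ∧ B z w = 1 := by
  obtain ⟨p, hp⟩ := hB.exists_one hu
  obtain ⟨q, hq1, hq2⟩ := exists_dual hB hu hw
  refine ⟨p + (1 - B p w) • q, ?_, ?_⟩
  · rw [map_add, map_smul, LinearMap.add_apply, LinearMap.smul_apply, hq1, smul_zero, add_zero,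
      hB.symm, hp]
  · rw [map_add, map_smul, LinearMap.add_apply, LinearMap.smul_apply, hq2, smul_eq_mul, mul_one]
    ring

omit hB in
theorem exists_perp2 [Module.Finite K V] (hd : 3 ≤ finrank K V) (a b : V) :
    ∃ z : V, z ≠ 0 ∧ B a z = 0 ∧ B b z = 0 := by
  have h1 : LinearMap.ker ((B a).prod (B b)) ≠ ⊥ := by
    apply LinearMap.ker_ne_bot_of_finrank_lt
    rw [Module.finrank_prod, Module.finrank_self]
    omega
  obtain ⟨z, hz, hz0⟩ := Submodule.exists_mem_ne_zero_of_ne_bot h1
  have h3 : ((B a).prod (B b)) z = 0 := hz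
  exact ⟨z, hz0, congrArg Prod.fst h3, congrArg Prod.snd h3⟩

include h2 in
/-- polarization -/
theorem orth_of_sing {x y : V} (hx : B x x = 0) (hy : B y y = 0) (hxy : B (x + y) (x + y) = 0) :
    B x y = 0 := by
  simp only [map_add, LinearMap.add_apply, hx, hy, zero_add, add_zero] at hxy
  rw [hB.symm x y] at hxy
  have h3 : 2 * B x y = 0 := by linear_combination hxy
  exact (mul_eq_zero.mp h3).resolve_left h2

include h2 in
/-- nonsingular vectors orthogonal to a singular vector -/
theorem exists_nonsing [Module.Finite K V] (hd : 3 ≤ finrank K V) {u : V} (hu0 : u ≠ 0)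
    (hu : B u u = 0) : ∃ y, B u y = 0 ∧ B y y ≠ 0 := by
  by_contra hcon
  push Not at hcon
  obtain ⟨u', h1, h3⟩ := hB.exists_pair h2 hu0 hu
  obtain ⟨y, hy0, hy1, hy2⟩ := exists_perp2 (B := B) hd u u'
  apply hy0
  apply hB.nd
  intro x
  have h4 : B u (x - B u x • u') = 0 := by
    rw [map_sub, map_smul, h1, smul_eq_mul, mul_one, sub_self]
  have h5 := orth_of_sing hB h2 (hcon y hy1) (hcon _ h4)
    (hcon _ (by rw [map_add, hy1, h4, add_zero]))
  rw [map_sub, map_smul, hB.symm u' y, hy2, smul_zero, sub_zero] at h5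
  exact h5

include h2 in
/-- the singular vectors span -/
theorem sum_sing {e f : V} (he : B e e = 0) (hf : B f f = 0) (hef : B e f = 1) (H : AddSubgroup V)
    (h : ∀ v, B v v = 0 → v ∈ H) (v : V) : v ∈ H := by
  obtain ⟨w, hw⟩ : ∃ w, w = v - B f v • e - B e v • f := ⟨_, rfl⟩
  have h1 := pr_mem hB he hf hef v
  rw [← hw] at h1
  have hw1 : B e w = 0 := h1.1
  have hw2 : B f w = 0 := h1.2
  have h3 : v = (w + e - (2⁻¹ * B w w) • f) + (B f v - 1) • e + (B e v + 2⁻¹ * B w w) • f := by
    rw [hw]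
    module
  rw [h3]
  refine H.add_mem (H.add_mem (h _ ?_) (h _ ?_)) (h _ ?_)
  · simp only [map_add, map_sub, map_smul, LinearMap.add_apply, LinearMap.sub_apply,
      LinearMap.smul_apply, smul_eq_mul, he, hf, hef, hw1, hw2, hB.symm w e, hB.symm w f,
      hB.symm e f]
    rw [hB.symm e w, hB.symm f w, hw1, hw2]
    field_simp
    ring
  · rw [map_smul, map_smul, LinearMap.smul_apply, he, smul_zero, smul_zero]
  · rw [map_smul, map_smul, LinearMap.smul_apply, hf, smul_zero, smul_zero]

end Lin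

section Sing

variable {K V : Type*} [Field K] [Finite K] [AddCommGroup V] [Module K V] [Module.Finite K V]
  {B : BilinForm K V} (hB : Sm B) (h2 : (2 : K) ≠ 0)

include hB h2

omit hB [AddCommGroup V] [Module K V] [Module.Finite K V] in
theorem exists_quad {a b : K} (ha : a ≠ 0) (hb : b ≠ 0) (c : K) :
    ∃ s t : K, s * s * a + t * t * b + c = 0 := by
  haveI := Fintype.ofFinite K
  have hodd : Fintype.card K % 2 = 1 := by
    apply FiniteField.odd_card_of_char_ne_two
    intro h
    apply h2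
    have h3 := ringChar.Nat.cast_ringChar (R := K)
    rw [h] at h3
    exact_mod_cast h3
  obtain ⟨s, t, hst⟩ := FiniteField.exists_root_sum_quadratic (R := K)
    (f := Polynomial.C a * Polynomial.X ^ 2 + Polynomial.C 0 * Polynomial.X + Polynomial.C 0)
    (g := Polynomial.C b * Polynomial.X ^ 2 + Polynomial.C 0 * Polynomial.X + Polynomial.C c)
    (Polynomial.degree_quadratic ha) (Polynomial.degree_quadratic hb) hodd
  refine ⟨s, t, ?_⟩
  simp only [Polynomial.eval_add, Polynomial.eval_mul, Polynomial.eval_C, Polynomial.eval_pow,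
    Polynomial.eval_X] at hst
  linear_combination hst

/-- singular vectors exist -/
theorem exists_sing (hd : 3 ≤ finrank K V) : ∃ v : V, v ≠ 0 ∧ B v v = 0 := by
  by_contra hcon
  push Not at hcon
  obtain ⟨x, hx0⟩ : ∃ x : V, x ≠ 0 := by
    by_contra h
    push Not at h
    haveI : Subsingleton V := ⟨fun x y => by rw [h x, h y]⟩
    have h4 := Module.finrank_zero_of_subsingleton (R := K) (M := V)
    omega
  obtain ⟨y, hy0, hxy, -⟩ := exists_perp2 (B := B) hd x x
  obtain ⟨z, hz0, hxz, hyz⟩ := exists_perp2 (B := B) hd x y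
  obtain ⟨s, t, hst⟩ := exists_quad h2 (hcon x hx0) (hcon y hy0) (B z z)
  refine hcon (s • x + t • y + z) ?_ ?_
  · intro h
    have h3 := congrArg (B z) h
    rw [map_add, map_add, map_smul, map_smul, hB.symm x z, hB.symm y z, hxz, hyz, smul_zero,
      smul_zero, zero_add, zero_add, map_zero] at h3
    exact hcon z hz0 h3
  · simp only [map_add, map_smul, LinearMap.add_apply, LinearMap.smul_apply, smul_eq_mul,
      hxy, hxz, hyz, hB.symm x y, hB.symm x z, hB.symm y z]
    linear_combination hst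

/-- a singular vector orthogonal to two others -/
theorem exists_sing_perp (hd : 5 ≤ finrank K V) {y z : V} (hy : B y y = 0) (hz : B z z = 0)
    (hyz : B y z ≠ 0) : ∃ x : V, x ≠ 0 ∧ B x x = 0 ∧ B y x = 0 ∧ B z x = 0 := by
  have h1 : B y ((B y z)⁻¹ • z) = 1 := by
    rw [map_smul, smul_eq_mul, inv_mul_cancel₀ hyz]
  have h3 : B ((B y z)⁻¹ • z) ((B y z)⁻¹ • z) = 0 := by
    rw [map_smul, map_smul, LinearMap.smul_apply, hz, smul_zero, smul_zero]
  have h4 : 3 ≤ finrank K (WW B y ((B y z)⁻¹ • z)) := by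
    have h5 := (splitE hB hy h3 h1).finrank_eq
    rw [Module.finrank_prod, Module.finrank_prod, Module.finrank_self] at h5
    omega
  obtain ⟨x, hx0, hx⟩ := exists_sing (BW_sm hB hy h3 h1) h2 h4
  refine ⟨x, fun h => hx0 (Subtype.ext h), hx, x.2.1, ?_⟩
  have h5 : B ((B y z)⁻¹ • z) x = 0 := x.2.2
  rw [map_smul, LinearMap.smul_apply, smul_eq_mul] at h5
  exact (mul_eq_zero.mp h5).resolve_left (inv_ne_zero hyz)

/-- Functions on the singular vectors which are constant on orthogonal pairs are constant. -/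
theorem sing_const (hd : 5 ≤ finrank K V) {α : Type*} (φ : V → α)
    (h : ∀ y z, y ≠ 0 → z ≠ 0 → B y y = 0 → B z z = 0 → B y z = 0 → (∀ k : K, z ≠ k • y) →
      φ y = φ z) {y z : V} (hy0 : y ≠ 0) (hz0 : z ≠ 0) (hy : B y y = 0) (hz : B z z = 0) :
    φ y = φ z := by
  have key : ∀ y z : V, y ≠ 0 → z ≠ 0 → B y y = 0 → B z z = 0 → B y z ≠ 0 → φ y = φ z := by
    intro y z hy0 hz0 hy hz hyz
    obtain ⟨x, hx0, hx, hyx, hzx⟩ := exists_sing_perp hB h2 hd hy hz hyz
    have h1 : φ y = φ x := by
      refine h y x hy0 hx0 hy hx hyx ?_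
      rintro k rfl
      rw [map_smul, hB.symm y z, smul_eq_mul] at hzx
      have h3 : k = 0 := (mul_eq_zero.mp hzx).resolve_right hyz
      exact hx0 (by rw [h3, zero_smul])
    have h3 : φ z = φ x := by
      refine h z x hz0 hx0 hz hx hzx ?_
      rintro k rfl
      rw [map_smul, smul_eq_mul] at hyx
      have h3 : k = 0 := (mul_eq_zero.mp hyx).resolve_right hyz
      exact hx0 (by rw [h3, zero_smul])
    rw [h1, h3]
  by_cases hyz : B y z = 0
  · by_cases hk : ∃ k : K, z = k • y
    · obtain ⟨k, rfl⟩ := hk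
      obtain ⟨y', h1, h3⟩ := hB.exists_pair h2 hy0 hy
      have hy'0 : y' ≠ 0 := by
        rintro rfl
        rw [map_zero] at h1
        exact zero_ne_one h1
      have hk0 : k ≠ 0 := by
        rintro rfl
        exact hz0 (zero_smul _ _)
      rw [key y y' hy0 hy'0 hy h3 (by rw [h1]; exact one_ne_zero)]
      refine key _ _ hy'0 hz0 h3 hz ?_
      rw [map_smul, hB.symm y y', h1, smul_eq_mul, mul_one]
      exact hk0
    · push Not at hk
      exact h y z hy0 hz0 hy hz hyz hk
  · exact key y z hy0 hz0 hy hz hyz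

/-- A singular vector which is not orthogonal to two others. -/
theorem exists_sing_ne (hd : 3 ≤ finrank K V) {u w : V} (hu0 : u ≠ 0) (hw0 : w ≠ 0)
    (hu : B u u = 0) (hw : B w w = 0) : ∃ z : V, B z z = 0 ∧ B u z ≠ 0 ∧ B w z ≠ 0 := by
  by_cases huw : B u w = 0
  · by_cases hk : ∃ k : K, w = k • u
    · obtain ⟨k, rfl⟩ := hk
      obtain ⟨z, h1, h3⟩ := hB.exists_pair h2 hu0 hu
      have hk0 : k ≠ 0 := by
        rintro rfl
        exact hw0 (zero_smul _ _)
      refine ⟨z, h3, by rw [h1]; exact one_ne_zero, ?_⟩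
      rw [map_smul, LinearMap.smul_apply, h1, smul_eq_mul, mul_one]
      exact hk0
    · push Not at hk
      obtain ⟨z, h1, h3⟩ := exists_one_one hB hu0 hk
      refine ⟨z - (2⁻¹ * B z z) • u, ?_, ?_, ?_⟩
      · simp only [map_sub, map_smul, LinearMap.sub_apply, LinearMap.smul_apply, smul_eq_mul, hu,
          h1, hB.symm z u]
        field_simp
        ring
      · rw [map_sub, map_smul, hu, hB.symm z u, h1, smul_zero, sub_zero]
        exact one_ne_zero
      · rw [map_sub, map_smul, hB.symm u w, huw, hB.symm z w, h3, smul_zero, sub_zero]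
        exact one_ne_zero
  · obtain ⟨y, hy1, hy2, hy3⟩ : ∃ y, B u y = 0 ∧ B w y = 0 ∧ B y y ≠ 0 := by
      by_contra hcon
      push Not at hcon
      obtain ⟨y, hy0, hy1, hy2⟩ := exists_perp2 (B := B) hd u w
      apply hy0
      apply hB.nd
      intro x
      obtain ⟨x', hx'⟩ : ∃ x', x' = x - ((B u w)⁻¹ * B w x) • u - ((B u w)⁻¹ * B u x) • w :=
        ⟨_, rfl⟩
      have e1 : B u x' = 0 := by
        rw [hx', map_sub, map_sub, map_smul, map_smul, hu, smul_zero, sub_zero, smul_eq_mul]
        field_simp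
        ring
      have e2 : B w x' = 0 := by
        rw [hx', map_sub, map_sub, map_smul, map_smul, hw, hB.symm u w, smul_zero, sub_zero,
          smul_eq_mul]
        field_simp
        ring
      have h5 := orth_of_sing hB h2 (hcon y hy1 hy2) (hcon _ e1 e2)
        (hcon _ (by rw [map_add, hy1, e1, add_zero]) (by rw [map_add, hy2, e2, add_zero]))
      rw [hx', map_sub, map_sub, map_smul, map_smul, hB.symm u y, hB.symm w y, hy1, hy2, smul_zero,
        smul_zero, sub_zero, sub_zero] at h5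
      exact h5
    refine ⟨u - (B y y * (2 * B u w)⁻¹) • w + y, ?_, ?_, ?_⟩
    · simp only [map_add, map_sub, map_smul, LinearMap.sub_apply, LinearMap.add_apply,
        LinearMap.smul_apply, smul_eq_mul, hu, hw, hy1, hy2]
      rw [hB.symm u y, hB.symm w y, hy1, hy2, hB.symm u w]
      field_simp
      ring
    · rw [map_add, map_sub, map_smul, hu, hy1, smul_eq_mul, zero_sub, add_zero]
      refine neg_ne_zero.mpr (mul_ne_zero (mul_ne_zero hy3 (inv_ne_zero ?_)) huw)
      exact mul_ne_zero h2 huw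
    · rw [map_add, map_sub, map_smul, hw, hy2, smul_zero, sub_zero, add_zero, hB.symm u w]
      exact huw

end Sing

section Rho

variable {K V : Type*} [Field K] [AddCommGroup V] [Module K V]

/-- the maps -/
def rl (B : BilinForm K V) (u y : V) : V →ₗ[K] V where
  toFun x := x + B x u • y - (B x y + 2⁻¹ * B y y * B x u) • u
  map_add' := by
    intro a b
    simp only [map_add, LinearMap.add_apply]
    module
  map_smul' := by
    intro c a
    simp only [map_smul, LinearMap.smul_apply, smul_eq_mul, RingHom.id_apply]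
    module

theorem rl_apply (B : BilinForm K V) (u y x : V) :
    rl B u y x = x + B x u • y - (B x y + 2⁻¹ * B y y * B x u) • u := rfl

variable {B : BilinForm K V} (hB : Sm B) (h2 : (2 : K) ≠ 0)

include hB h2

theorem rl_add {u y y' : V} (hu : B u u = 0) (hy : B u y = 0) (hy' : B u y' = 0) (x : V) :
    rl B u y (rl B u y' x) = rl B u (y + y') x := by
  rw [rl_apply, rl_apply, rl_apply]
  simp only [map_add, map_sub, map_smul, LinearMap.add_apply, LinearMap.sub_apply,
    LinearMap.smul_apply, smul_eq_mul, hu, hy, hy', hB.symm u y, hB.symm u y']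
  rw [hB.symm y y', mul_zero, mul_zero, add_zero, sub_zero]
  have e1 : 2⁻¹ * (B y y + B y y' + (B y y' + B y' y')) * B x u =
    2⁻¹ * B y y * B x u + 2⁻¹ * B y' y' * B x u + B y y' * B x u := by
    field_simp
    ring
  rw [e1, sub_zero]
  module

omit hB h2 in
theorem rl_zero (u x : V) : rl B u 0 x = x := by
  rw [rl_apply, smul_zero, map_zero, map_zero, mul_zero, zero_mul, add_zero, add_zero, zero_smul,
    sub_zero]

theorem rl_iso {u y : V} (hu : B u u = 0) (hy : B u y = 0) (x z : V) :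
    B (rl B u y x) (rl B u y z) = B x z := by
  rw [rl_apply, rl_apply]
  simp only [map_add, map_sub, map_smul, LinearMap.add_apply, LinearMap.sub_apply,
    LinearMap.smul_apply, smul_eq_mul, hu, hy]
  rw [hB.symm u y, hy, hB.symm z u, hB.symm z y]
  field_simp
  ring

/-- the element of the group -/
theorem exists_rl {p : ℕ} [Fact p.Prime] [CharP K p] {u y : V} (hu : B u u = 0)
    (hy : B u y = 0) : ∃ g : V ≃ₗ[K] V, g ∈ SpG B ∧ Pel p g ∧ ∀ x, g x = rl B u y x := by
  have hneg : B u (-y) = 0 := by rw [map_neg, hy, neg_zero]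
  let g : V ≃ₗ[K] V := LinearEquiv.ofLinear (rl B u y) (rl B u (-y))
    (LinearMap.ext fun x => by
      rw [LinearMap.comp_apply, rl_add hB h2 hu hy hneg, add_neg_cancel, rl_zero]
      rfl)
    (LinearMap.ext fun x => by
      rw [LinearMap.comp_apply, rl_add hB h2 hu hneg hy, neg_add_cancel, rl_zero]
      rfl)
  have hg : ∀ x, g x = rl B u y x := fun x => rfl
  refine ⟨g, fun x z => ?_, ⟨1, ?_⟩, hg⟩
  · rw [hg, hg, rl_iso hB h2 hu hy]
  · have h1 : ∀ (n : ℕ) (x : V), (g ^ n) x = rl B u ((n : K) • y) x := by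
      intro n
      induction n with
      | zero => intro x; rw [pow_zero, Nat.cast_zero, zero_smul, rl_zero]; rfl
      | succ n ih =>
        intro x
        rw [pow_succ', LinearEquiv.mul_apply, ih, hg, rl_add hB h2 hu hy (by
          rw [map_smul, hy, smul_zero]), Nat.cast_succ]
        congr 2
        module
    apply LinearEquiv.ext
    intro x
    rw [pow_one, h1, CharP.cast_eq_zero, zero_smul, rl_zero]
    rfl

omit h2 in
/-- the images -/
theorem rl_eq {u y w z : V} (hu0 : u ≠ 0) (hu : B u u = 0) (hy : B u y = 0) (huw : ∀ k : K, w ≠ k • u)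
    (hw0 : w ≠ 0) (h : ∀ x, rl B u y x = rl B w z x) : ∃ a b : K, y = a • u + b • w := by
  have huw' : ∀ k : K, u ≠ k • w := by
    intro k hk
    have hk0 : k ≠ 0 := by
      rintro rfl
      exact hu0 (by rw [hk, zero_smul])
    exact huw k⁻¹ (by rw [hk, smul_smul, inv_mul_cancel₀ hk0, one_smul])
  obtain ⟨x, hx1, hx2⟩ := exists_dual hB hw0 huw'
  have h1 := h x
  rw [rl_apply, rl_apply, hx1, hx2, one_smul, zero_smul, mul_zero, mul_one, add_zero,
    add_zero] at h1
  refine ⟨B x y + 2⁻¹ * B y y, - B x z, ?_⟩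
  calc y = (x + y - (B x y + 2⁻¹ * B y y) • u) - x + (B x y + 2⁻¹ * B y y) • u := by abel
    _ = (x - B x z • w) - x + (B x y + 2⁻¹ * B y y) • u := by rw [h1]
    _ = _ := by module

end Rho

end Vale.Agent.P180.R2.H589.Oa
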