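import Vale.Agent.P180.R2.H589.Oa.Rad
import Mathlib.LinearAlgebra.BilinearForm.Orthogonal

/-!
P180: automorphisms of orthogonal groups: abelian radical subgroups.
-/

set_option linter.all false

namespace Vale.Agent.P180.R2.H589.Oa

open Subgroup Module
open LinearMap (BilinForm)
open Vale.Agent.P180.R2.H589.Sch
open Vale.Agent.P180.R2.H589.Or (Sm hypo hypo_apply hypo_sm splitE splitE_iso splitE_apply BW_sm
  pr_mem Cl)
open Vale.Agent.P180.R2.H589.Sp (SpG mem_SpG WW BW BW_apply lv lv_apply lv_mul lv_one lv_inv oo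
  oo_ne finite_gl)

section Phi

variable {T : Type*} [Group T]

/-- the property of the radicals -/
structure Phi (p n : ℕ) (Q : Subgroup T) : Prop where
  ne : Q ≠ ⊥
  rad : Bt.IsRad p Q
  ab : ∀ s ∈ Q, ∀ t ∈ Q, s * t = t * s
  card : ∀ t, t ∉ normalizer (Q : Set T) → Nat.card (Q ⊓ centralizer {t} : Subgroup T) ≤ n

/-- the image under an automorphism -/
theorem mem_map_aut (β : MulAut T) {Q : Subgroup T} {x : T} :
    x ∈ Q.map β.toMonoidHom ↔ β.symm x ∈ Q := by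
  constructor
  · rintro ⟨y, hy, rfl⟩
    change β.symm (β y) ∈ Q
    rwa [MulEquiv.symm_apply_apply]
  · intro h
    exact ⟨β.symm x, h, β.apply_symm_apply x⟩

theorem mem_norm_map (β : MulAut T) {Q : Subgroup T} {x : T} :
    x ∈ normalizer ((Q.map β.toMonoidHom : Subgroup T) : Set T) ↔
      β.symm x ∈ normalizer (Q : Set T) := by
  rw [mem_normalizer_iff, mem_normalizer_iff]
  constructor
  · intro h y
    have h1 := h (β y)
    rw [mem_map_aut, mem_map_aut, map_mul, map_mul, map_inv, MulEquiv.symm_apply_apply] at h1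
    exact h1
  · intro h y
    rw [mem_map_aut, mem_map_aut, map_mul, map_mul, map_inv]
    exact h (β.symm y)

theorem Phi.map {p n : ℕ} {Q : Subgroup T} (h : Phi p n Q) (β : MulAut T) :
    Phi p n (Q.map β.toMonoidHom) := by
  refine ⟨?_, ⟨h.rad.1.map _, ?_⟩, ?_, ?_⟩
  · intro h0
    apply h.ne
    rw [eq_bot_iff]
    intro x hx
    have h1 : β x ∈ Q.map β.toMonoidHom := ⟨x, hx, rfl⟩
    rw [h0, mem_bot] at h1
    rw [mem_bot]
    apply β.injective
    rw [h1, map_one]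
  · intro P hP hPN hPn x hx
    have h1 := h.rad.2 (P.map β.symm.toMonoidHom) (hP.map _) ?_ ?_ ⟨x, hx, rfl⟩
    · exact (mem_map_aut β).mpr h1
    · rintro _ ⟨y, hy, rfl⟩
      exact (mem_norm_map β).mp (hPN hy)
    · rintro g hg _ ⟨y, hy, rfl⟩
      refine ⟨β g * y * (β g)⁻¹, hPn (β g) ((mem_norm_map β).mpr ?_) y hy, ?_⟩
      · rw [MulEquiv.symm_apply_apply]
        exact hg
      · change β.symm (β g * y * (β g)⁻¹) = g * β.symm y * g⁻¹
        rw [map_mul, map_mul, map_inv, MulEquiv.symm_apply_apply]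
  · rintro _ ⟨s, hs, rfl⟩ _ ⟨t, ht, rfl⟩
    change β s * β t = β t * β s
    rw [← map_mul, ← map_mul, h.ab s hs t ht]
  · intro t ht
    refine le_trans (le_of_eq ?_) (h.card (β.symm t) (fun h1 => ht ((mem_norm_map β).mpr h1)))
    symm
    refine Nat.card_congr
      { toFun := fun x => ⟨β x, ⟨x, x.2.1, rfl⟩, mem_centralizer_iff.mpr ?_⟩
        invFun := fun x => ⟨β.symm x, (mem_map_aut β).mp x.2.1, mem_centralizer_iff.mpr ?_⟩
        left_inv := fun x => Subtype.ext (β.symm_apply_apply _)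
        right_inv := fun x => Subtype.ext (β.apply_symm_apply _) }
    · rintro s rfl
      have h1 := mem_centralizer_iff.mp x.2.2 _ rfl
      have h3 := congrArg β h1
      rwa [map_mul, map_mul, MulEquiv.apply_symm_apply] at h3
    · rintro s rfl
      have h1 := mem_centralizer_iff.mp x.2.2 _ rfl
      rw [← map_mul, h1, map_mul]

end Phi

section Lin

variable {K V : Type*} [Field K] [AddCommGroup V] [Module K V] {B : BilinForm K V}

theorem nondeg (hB : Sm B) : B.Nondegenerate :=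
  ⟨hB.nd, fun y h => hB.nd y fun x => by rw [hB.symm]; exact h x⟩

theorem isRefl (hB : Sm B) : B.IsRefl := fun x y h => by rw [hB.symm, h]

/-- unipotent elements are `p`-elements -/
theorem pel_of_nil {p : ℕ} [hp : Fact p.Prime] [CharP K p] {g : V ≃ₗ[K] V}
    (h : ((g : V →ₗ[K] V) - 1) ^ 3 = 0) : Pel p g := by
  by_cases hV : Nontrivial V
  · haveI : CharP (Module.End K V) p :=
      charP_of_injective_algebraMap (algebraMap K (Module.End K V)).injective p
    have h1 : ∀ m : ℕ, (g : V →ₗ[K] V) ^ m = ((g ^ m : V ≃ₗ[K] V) : V →ₗ[K] V) := by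
      intro m
      induction m with
      | zero => rfl
      | succ m ih =>
        rw [pow_succ, ih, pow_succ]
        rfl
    have h3 : 3 ≤ p ^ 2 := by
      have := hp.out.two_le
      nlinarith
    have h4 : ((g : V →ₗ[K] V) - 1) ^ p ^ 2 = 0 := by
      obtain ⟨k, hk⟩ := Nat.exists_eq_add_of_le h3
      rw [hk, pow_add, h, zero_mul]
    rw [sub_pow_char_pow_of_commute p 2 (Commute.one_right _), one_pow, h1] at h4
    refine ⟨2, ?_⟩
    apply LinearEquiv.ext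
    intro x
    have h5 := congrArg (fun e : V →ₗ[K] V => e x) (sub_eq_zero.mp h4)
    exact h5
  · have h3 : Subsingleton V := not_nontrivial_iff_subsingleton.mp hV
    exact ⟨0, LinearEquiv.ext fun x => Subsingleton.elim _ _⟩

end Lin

section VU

variable {K V : Type*} [Field K] [AddCommGroup V] [Module K V] {p : ℕ} [hp : Fact p.Prime]
  [CharP K p] {B : BilinForm K V} {X : Subgroup (V ≃ₗ[K] V)} (c : Ctx p B X)

/-- the unipotent radical of the stabiliser of `U` -/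
def VU (B : BilinForm K V) (X : Subgroup (V ≃ₗ[K] V)) (U : Submodule K V) : Subgroup X where
  carrier := {g | (∀ x ∈ U, (g : V ≃ₗ[K] V) x = x) ∧
    ∀ x ∈ B.orthogonal U, (g : V ≃ₗ[K] V) x - x ∈ U}
  one_mem' := by
    refine ⟨fun x _ => rfl, fun x _ => ?_⟩
    have : ((1 : X) : V ≃ₗ[K] V) x - x = 0 := sub_self x
    rw [this]
    exact U.zero_mem
  mul_mem' := by
    rintro g h ⟨h1, h2⟩ ⟨h3, h4⟩
    refine ⟨fun x hx => ?_, fun x hx => ?_⟩
    · rw [Subgroup.coe_mul, LinearEquiv.mul_apply, h3 x hx, h1 x hx]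
    · have h5 : ((g * h : X) : V ≃ₗ[K] V) x - x = (g : V ≃ₗ[K] V) ((h : V ≃ₗ[K] V) x - x) +
        ((g : V ≃ₗ[K] V) x - x) := by
        rw [Subgroup.coe_mul, LinearEquiv.mul_apply, map_sub]
        abel
      rw [h5, h1 _ (h4 x hx)]
      exact U.add_mem (h4 x hx) (h2 x hx)
  inv_mem' := by
    rintro g ⟨h1, h2⟩
    have h3 : ∀ x ∈ U, ((g⁻¹ : X) : V ≃ₗ[K] V) x = x := by
      intro x hx
      change (g : V ≃ₗ[K] V).symm x = x
      rw [LinearEquiv.symm_apply_eq, h1 x hx]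
    refine ⟨h3, fun x hx => ?_⟩
    have h4 : ((g⁻¹ : X) : V ≃ₗ[K] V) x - x =
        - ((g⁻¹ : X) : V ≃ₗ[K] V) ((g : V ≃ₗ[K] V) x - x) := by
      rw [map_sub]
      have : ((g⁻¹ : X) : V ≃ₗ[K] V) ((g : V ≃ₗ[K] V) x) = x :=
        (g : V ≃ₗ[K] V).symm_apply_apply x
      rw [this]
      abel
    rw [h4, h3 _ (h2 x hx)]
    exact U.neg_mem (h2 x hx)

theorem mem_VU {U : Submodule K V} {g : X} : g ∈ VU B X U ↔ (∀ x ∈ U, (g : V ≃ₗ[K] V) x = x) ∧
    ∀ x ∈ B.orthogonal U, (g : V ≃ₗ[K] V) x - x ∈ U := Iff.rfl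

include c in
theorem isPGroup_VU {U : Submodule K V} : IsPGroup p (VU B X U) := by
  rw [Bt.isPGroup_iff]
  rintro g ⟨h1, h2⟩
  obtain ⟨n, hn⟩ : Pel p (g : V ≃ₗ[K] V) := by
    apply pel_of_nil
    apply LinearMap.ext
    intro x
    have e1 : ∀ x, (((g : V ≃ₗ[K] V) : V →ₗ[K] V) - 1) x = (g : V ≃ₗ[K] V) x - x := fun x => rfl
    have e2 : (g : V ≃ₗ[K] V) x - x ∈ B.orthogonal U := by
      intro u hu
      rw [map_sub]
      nth_rewrite 1 [← h1 u hu]
      rw [iso c, sub_self]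
    change (((g : V ≃ₗ[K] V) : V →ₗ[K] V) - 1) ((((g : V ≃ₗ[K] V) : V →ₗ[K] V) - 1)
      ((((g : V ≃ₗ[K] V) : V →ₗ[K] V) - 1) x)) = 0
    rw [e1, e1, e1, h1 _ (h2 _ e2), sub_self]
  exact ⟨n, Subtype.ext (by rw [Subgroup.coe_pow, hn]; rfl)⟩

include c in
/-- normalisation -/
theorem VU_conj {U : Submodule K V} {g : X} (hg : ∀ x, (g : V ≃ₗ[K] V) x ∈ U ↔ x ∈ U) {r : X}
    (hr : r ∈ VU B X U) : g * r * g⁻¹ ∈ VU B X U := by
  have e1 : ∀ x, ((g * r * g⁻¹ : X) : V ≃ₗ[K] V) x =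
      (g : V ≃ₗ[K] V) ((r : V ≃ₗ[K] V) ((g : V ≃ₗ[K] V).symm x)) := fun x => rfl
  have e2 : ∀ x, (g : V ≃ₗ[K] V) ((g : V ≃ₗ[K] V).symm x) = x :=
    (g : V ≃ₗ[K] V).apply_symm_apply
  refine ⟨fun x hx => ?_, fun x hx => ?_⟩
  · rw [e1, hr.1 _ ((hg _).mp (by rw [e2]; exact hx)), e2]
  · have h1 : (g : V ≃ₗ[K] V).symm x ∈ B.orthogonal U := by
      intro u hu
      rw [← iso c g, e2]
      exact hx _ ((hg u).mpr hu)
    have h3 := (hg _).mpr (hr.2 _ h1)
    rw [map_sub, e2] at h3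
    rw [e1]
    exact h3

include c in
theorem rX_mem_VU {U : Submodule K V} (hU : ∀ x ∈ U, ∀ y ∈ U, B x y = 0) {u y : V} (hu : u ∈ U)
    (hy : y ∈ B.orthogonal U) : rX B X u y ∈ VU B X U := by
  have huu : B u u = 0 := hU u hu u hu
  have huy : B u y = 0 := hy u hu
  refine ⟨fun x hx => ?_, fun x hx => ?_⟩
  · rw [rX_apply c huu huy, rl_apply, hU x hx u hu, hy x hx, mul_zero, add_zero, zero_smul,
      zero_smul, add_zero, sub_zero]
  · have h1 : B x u = 0 := by rw [c.sm.symm u x]; exact hx u hu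
    rw [rX_apply c huu huy, rl_apply, h1, mul_zero, add_zero, zero_smul, add_zero, sub_sub_cancel_left]
    exact U.neg_mem (U.smul_mem _ hu)

end VU

section Cls

variable {K V : Type*} [Field K] [Finite K] [AddCommGroup V] [Module K V] [Module.Finite K V]
  {p : ℕ} [hp : Fact p.Prime]
  [CharP K p] {B : BilinForm K V} {X : Subgroup (V ≃ₗ[K] V)} (c : Ctx p B X)
  {T : Type*} [Group T] {π : X →* T} (h : PiC π)

/-- the lift of a `p`-subgroup -/
def Lf (h : PiC π) {Q : Subgroup T} (hQ : IsPGroup p Q) : Subgroup X where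
  carrier := {g | Pel p g ∧ π g ∈ Q}
  one_mem' := ⟨pel_one, by rw [map_one]; exact Q.one_mem⟩
  mul_mem' := by
    haveI : Finite V := Module.finite_of_finite K
    haveI : Finite (V ≃ₗ[K] V) := finite_gl
    rintro g g' ⟨h1, h2⟩ ⟨h3, h4⟩
    refine ⟨pel_mul h.ker_le (not_dvd_ker h) hQ h1 h3 h2 h4, ?_⟩
    rw [map_mul]
    exact Q.mul_mem h2 h4
  inv_mem' := by
    rintro g ⟨h1, h2⟩
    refine ⟨h1.inv, ?_⟩
    rw [map_inv]
    exact Q.inv_mem h2

/-- the fixed space -/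
def Fx (Y : Subgroup X) : Submodule K V where
  carrier := {x | ∀ y ∈ Y, (y : V ≃ₗ[K] V) x = x}
  zero_mem' := fun y _ => map_zero _
  add_mem' := by
    intro a b ha hb y hy
    rw [map_add, ha y hy, hb y hy]
  smul_mem' := by
    intro c a ha y hy
    rw [map_smul, ha y hy]

omit [Finite K] [Module.Finite K V] in
theorem mem_Fx {Y : Subgroup X} {x : V} : x ∈ Fx Y ↔ ∀ y ∈ Y, (y : V ≃ₗ[K] V) x = x := Iff.rfl

omit [Finite K] [Module.Finite K V] in
theorem Fx_conj {Y : Subgroup X} {g : X} (hg : ∀ y ∈ Y, g⁻¹ * y * g ∈ Y) {x : V}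
    (hx : x ∈ Fx Y) : (g : V ≃ₗ[K] V) x ∈ Fx Y := by
  intro y hy
  have h1 := hx _ (hg y hy)
  have h3 : (y : V ≃ₗ[K] V) ((g : V ≃ₗ[K] V) x) = (g : V ≃ₗ[K] V)
      (((g⁻¹ * y * g : X) : V ≃ₗ[K] V) x) := by
    change _ = (g : V ≃ₗ[K] V) ((g : V ≃ₗ[K] V).symm ((y : V ≃ₗ[K] V) ((g : V ≃ₗ[K] V) x)))
    rw [LinearEquiv.apply_symm_apply]
  rw [h3, h1]

include hp in
/-- two commuting elements -/
theorem not_comm {u₁ u₂ y : V} (hu0 : u₂ ≠ 0) (hu : ∀ k : K, u₁ ≠ k • u₂) (h11 : B u₁ u₁ = 0)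
    (h22 : B u₂ u₂ = 0) (h12 : B u₁ u₂ = 0) (h1y : B u₁ y = 0) (h2y : B u₂ y = 0)
    (hy : B y y ≠ 0) (c : Ctx p B X)
    (hc : π (rX B X u₁ y) * π (rX B X u₂ y) = π (rX B X u₂ y) * π (rX B X u₁ y))
    (h : PiC π) : False := by
  haveI : Finite V := Module.finite_of_finite K
  have h1 := comm_of_pi h (rX_pel c h22 h2y) hc
  have e1 : (rX B X u₁ y : V ≃ₗ[K] V) u₂ = u₂ := by
    rw [rX_apply c h11 h1y, rl_apply, c.sm.symm u₁ u₂, h12, h2y, mul_zero, add_zero, zero_smul,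
      zero_smul, add_zero, sub_zero]
  have e2 : (rX B X u₁ y : V ≃ₗ[K] V) y = y - B y y • u₁ := by
    rw [rX_apply c h11 h1y, rl_apply, c.sm.symm u₁ y, h1y, mul_zero, add_zero, zero_smul, add_zero]
  rw [rX_conj c _ h22 h2y, e1, e2] at h1
  obtain ⟨k, hk⟩ := rX_inj c hu0 h22 (by
    rw [map_sub, map_smul, h2y, c.sm.symm u₁ u₂, h12, smul_zero, sub_zero]) h2y h1
  apply hu (-(B y y)⁻¹ * k)
  have h3 : B y y • u₁ = - (k • u₂) := by
    have h4 : y - B y y • u₁ - (y + k • u₂) = 0 := by rw [hk, sub_self]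
    have h5 : B y y • u₁ = - (k • u₂) - (y - B y y • u₁ - (y + k • u₂)) := by abel
    rw [h5, h4, sub_zero]
  have h4 : u₁ = (B y y)⁻¹ • (B y y • u₁) := by
    rw [smul_smul, inv_mul_cancel₀ hy, one_smul]
  rw [h4, h3]
  module

include c h in
/-- **Abelian radical subgroups.** -/
theorem eq_RT_of_Phi (hd : 7 ≤ finrank K V) (hd8 : finrank K V ≠ 8) {Q : Subgroup T}
    (hcen : ∀ u : V, u ≠ 0 → B u u = 0 → ∀ t, (∀ s ∈ RT B π u, t * s = s * t) → t ∈ RT B π u)
    (hQ : Phi p (Nat.card K) Q) : ∃ u : V, u ≠ 0 ∧ B u u = 0 ∧ Q = RT B π u := by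
  haveI : Finite V := Module.finite_of_finite K
  haveI : Finite (V ≃ₗ[K] V) := finite_gl
  haveI : Finite T := Finite.of_surjective π h.surj
  have hB := c.sm
  obtain ⟨Y, hY⟩ : ∃ Y, Y = Lf h hQ.rad.1 := ⟨_, rfl⟩
  have hmY : ∀ g : X, g ∈ Y ↔ Pel p g ∧ π g ∈ Q := by
    intro g
    rw [hY]
    exact Iff.rfl
  have hYp : IsPGroup p Y := Bt.isPGroup_iff.mpr fun x hx => ((hmY x).mp hx).1
  have hYc : ∀ g : X, π g ∈ normalizer (Q : Set T) → ∀ y ∈ Y, g * y * g⁻¹ ∈ Y := by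
    intro g hg y hy
    rw [hmY] at hy ⊢
    refine ⟨hy.1.conj g, ?_⟩
    rw [map_mul, map_mul, map_inv]
    exact (mem_normalizer_iff.mp hg _).mp hy.2
  obtain ⟨F, hF⟩ : ∃ F : Submodule K V, F = Fx Y := ⟨_, rfl⟩
  have hFc : ∀ g : X, π g ∈ normalizer (Q : Set T) → ∀ x, (g : V ≃ₗ[K] V) x ∈ F ↔ x ∈ F := by
    have h1 : ∀ g : X, π g ∈ normalizer (Q : Set T) → ∀ x ∈ F, (g : V ≃ₗ[K] V) x ∈ F := by
      intro g hg x hx
      rw [hF] at hx ⊢
      refine Fx_conj (fun y hy => ?_) hx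
      have h3 := hYc g⁻¹ (by rw [map_inv]; exact Subgroup.inv_mem _ hg) y hy
      rwa [inv_inv] at h3
    intro g hg x
    refine ⟨fun hx => ?_, h1 g hg x⟩
    have h3 := h1 g⁻¹ (by rw [map_inv]; exact Subgroup.inv_mem _ hg) _ hx
    have h4 : ((g⁻¹ : X) : V ≃ₗ[K] V) ((g : V ≃ₗ[K] V) x) = x :=
      (g : V ≃ₗ[K] V).symm_apply_apply x
    rwa [h4] at h3
  -- `F ≠ ⊤`
  have hFtop : F ≠ ⊤ := by
    intro h0
    obtain ⟨t, ht1⟩ := Q.ne_bot_iff_exists_ne_one.mp hQ.ne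
    obtain ⟨g, hg, hgt⟩ := exists_pel (p := p) (not_dvd_ker h)
      (Bt.isPGroup_iff.mp hQ.rad.1 t t.2) (h.surj t)
    have h1 : g = 1 := by
      apply ext_X
      intro x
      have h3 : x ∈ F := by rw [h0]; exact Submodule.mem_top
      rw [hF] at h3
      exact h3 g ((hmY g).mpr ⟨hg, by rw [hgt]; exact t.2⟩)
    apply ht1
    apply Subtype.ext
    rw [← hgt, h1, map_one]
    rfl
  obtain ⟨G, hG⟩ : ∃ G : Submodule K V, G = B.orthogonal F := ⟨_, rfl⟩
  have hGbot : G ≠ ⊥ := by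
    intro h0
    apply hFtop
    rw [← LinearMap.BilinForm.orthogonal_orthogonal (nondeg hB) (isRefl hB) F, ← hG, h0,
      LinearMap.BilinForm.orthogonal_bot]
  have hYG : ∀ y ∈ Y, ∀ x ∈ G, (y : V ≃ₗ[K] V) x ∈ G := by
    intro y hy x hx
    rw [hG] at hx ⊢
    intro v hv
    have h1 : (y : V ≃ₗ[K] V) v = v := by
      rw [hF] at hv
      exact hv y hy
    rw [← h1, iso c]
    exact hx v hv
  obtain ⟨U, hU⟩ : ∃ U : Submodule K V, U = F ⊓ G := ⟨_, rfl⟩
  have hUne : ∃ u ∈ U, u ≠ 0 := by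
    haveI : Finite G := inferInstance
    obtain ⟨x, hx0, hx⟩ := Bt.exists_fixed_gen hYp
      (fun (y : Y) (x : G) => (⟨((y : X) : V ≃ₗ[K] V) x, hYG y y.2 x x.2⟩ : G))
      (fun x => rfl) (fun y z x => rfl)
      (by
        rw [Module.natCard_eq_pow_finrank (K := K)]
        refine dvd_pow Bt.dvd_card_K ?_
        intro h0
        exact hGbot (Submodule.finrank_eq_zero.mp h0)) (x₀ := (0 : G))
      (fun y => Subtype.ext (map_zero _))
    refine ⟨x, ?_, fun h0 => hx0 (Subtype.ext h0)⟩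
    rw [hU, hF]
    exact ⟨fun y hy => congrArg Subtype.val (hx ⟨y, hy⟩), x.2⟩
  have hUU : ∀ x ∈ U, ∀ y ∈ U, B x y = 0 := by
    intro x hx y hy
    rw [hU] at hx hy
    have h1 : y ∈ B.orthogonal F := by rw [← hG]; exact hy.2
    exact h1 x hx.1
  have hUc : ∀ g : X, π g ∈ normalizer (Q : Set T) → ∀ x, (g : V ≃ₗ[K] V) x ∈ U ↔ x ∈ U := by
    intro g hg x
    have h1 : ∀ g : X, π g ∈ normalizer (Q : Set T) → ∀ x ∈ G, (g : V ≃ₗ[K] V) x ∈ G := by
      intro g hg x hx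
      rw [hG] at hx ⊢
      intro v hv
      have h3 : (g : V ≃ₗ[K] V) ((g : V ≃ₗ[K] V).symm v) = v :=
        (g : V ≃ₗ[K] V).apply_symm_apply v
      rw [← h3, iso c]
      refine hx _ ((hFc g hg _).mp ?_)
      rw [h3]
      exact hv
    have h3 : (g : V ≃ₗ[K] V) x ∈ G ↔ x ∈ G := by
      refine ⟨fun hx => ?_, h1 g hg x⟩
      have h3 := h1 g⁻¹ (by rw [map_inv]; exact Subgroup.inv_mem _ hg) _ hx
      have h4 : ((g⁻¹ : X) : V ≃ₗ[K] V) ((g : V ≃ₗ[K] V) x) = x :=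
        (g : V ≃ₗ[K] V).symm_apply_apply x
      rwa [h4] at h3
    rw [hU, Submodule.mem_inf, Submodule.mem_inf, hFc g hg x, h3]
  have hle : (VU B X U).map π ≤ Q := by
    refine Bt.le_of_rad hQ.rad ((isPGroup_VU c).map π) ?_
    intro t ht
    obtain ⟨g, rfl⟩ := h.surj t
    have h1 : ∀ {g : X}, π g ∈ normalizer (Q : Set T) → ∀ s ∈ (VU B X U).map π,
        π g * s * (π g)⁻¹ ∈ (VU B X U).map π := by
      rintro g hg _ ⟨r, hr, rfl⟩
      exact ⟨g * r * g⁻¹, VU_conj c (hUc g hg) hr, by rw [map_mul, map_mul, map_inv]⟩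
    rw [mem_normalizer_iff]
    intro s
    constructor
    · exact h1 ht s
    · intro hs
      have h3 := h1 (g := g⁻¹) (by rw [map_inv]; exact Subgroup.inv_mem _ ht) _ hs
      have h4 : π g⁻¹ * (π g * s * (π g)⁻¹) * (π g⁻¹)⁻¹ = s := by rw [map_inv]; group
      rwa [h4] at h3
  have hrQ : ∀ u ∈ U, ∀ y ∈ B.orthogonal U, π (rX B X u y) ∈ Q := fun u hu y hy =>
    hle ⟨_, rX_mem_VU c hUU hu hy, rfl⟩
  obtain ⟨u₀, hu₀, hu₀0⟩ := hUne
  have hu₀s : B u₀ u₀ = 0 := hUU u₀ hu₀ u₀ hu₀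
  by_cases hU1 : ∀ x ∈ U, ∃ k : K, x = k • u₀
  · -- a line
    refine ⟨u₀, hu₀0, hu₀s, ?_⟩
    have h1 : RT B π u₀ ≤ Q := by
      intro t ht
      obtain ⟨y, hy, rfl⟩ := (mem_RT c hu₀s).mp ht
      refine hrQ u₀ hu₀ y fun x hx => ?_
      obtain ⟨k, rfl⟩ := hU1 x hx
      rw [map_smul, LinearMap.smul_apply, hy, smul_zero]
    refine le_antisymm (fun t ht => ?_) h1
    exact hcen u₀ hu₀0 hu₀s t fun s hs => hQ.ab t ht s (h1 hs)
  exfalso
  push Not at hU1
  obtain ⟨u₁, hu₁, hu₁k⟩ := hU1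
  by_cases hUp : B.orthogonal U ≤ U
  · -- maximal totally singular subspaces
    have hUo : B.orthogonal U = U := le_antisymm hUp fun x hx y hy => hUU y hy x hx
    have hfin : finrank K V = 2 * finrank K U := by
      have h1 := LinearMap.BilinForm.finrank_orthogonal (nondeg hB) U
      rw [hUo] at h1
      have h3 := Submodule.finrank_le U
      omega
    have h5 : 5 ≤ finrank K U := by omega
    obtain ⟨a, hua, haa⟩ := hB.exists_pair c.two hu₀0 hu₀s
    obtain ⟨u₂, hu₂, hu₂0, hau₂⟩ : ∃ u₂ ∈ U, u₂ ≠ 0 ∧ B a u₂ = 0 := by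
      have h1 : LinearMap.ker ((B a).comp U.subtype) ≠ ⊥ := by
        apply LinearMap.ker_ne_bot_of_finrank_lt
        rw [Module.finrank_self]
        omega
      obtain ⟨z, hz, hz0⟩ := Submodule.exists_mem_ne_zero_of_ne_bot h1
      exact ⟨z, z.2, fun h0 => hz0 (Subtype.ext h0), hz⟩
    have hau : B a u₀ = 1 := by rw [hB.symm, hua]
    have hu02 : B u₀ u₂ = 0 := hUU u₀ hu₀ u₂ hu₂
    have hu22 : B u₂ u₂ = 0 := hUU u₂ hu₂ u₂ hu₂
    obtain ⟨b₀, hb₀⟩ := hB.exists_one hu₂0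
    obtain ⟨b₁, hb₁⟩ : ∃ b₁, b₁ = b₀ - B u₀ b₀ • a - B a b₀ • u₀ := ⟨_, rfl⟩
    have e1 : B u₀ b₁ = 0 := by
      rw [hb₁, map_sub, map_sub, map_smul, map_smul, hua, hu₀s, smul_zero, sub_zero, smul_eq_mul,
        mul_one, sub_self]
    have e2 : B a b₁ = 0 := by
      rw [hb₁, map_sub, map_sub, map_smul, map_smul, haa, hau, smul_zero, sub_zero, smul_eq_mul,
        mul_one, sub_self]
    have e3 : B u₂ b₁ = 1 := by
      rw [hb₁, map_sub, map_sub, map_smul, map_smul, hb₀, hB.symm a u₂, hau₂, hB.symm u₀ u₂, hu02,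
        smul_zero, smul_zero, sub_zero, sub_zero]
    obtain ⟨b, hb⟩ : ∃ b, b = b₁ - (2⁻¹ * B b₁ b₁) • u₂ := ⟨_, rfl⟩
    have f1 : B u₀ b = 0 := by rw [hb, map_sub, map_smul, e1, hu02, smul_zero, sub_zero]
    have f2 : B a b = 0 := by rw [hb, map_sub, map_smul, e2, hau₂, smul_zero, sub_zero]
    have f3 : B u₂ b = 1 := by rw [hb, map_sub, map_smul, e3, hu22, smul_zero, sub_zero]
    have f4 : B b b = 0 := by
      have h2 := c.two
      rw [hb]
      simp only [map_sub, map_smul, LinearMap.sub_apply, LinearMap.smul_apply, smul_eq_mul, hu22,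
        e3, hB.symm u₂ b₁]
      field_simp
      ring
    -- the element
    have htN : π (rX B X a b) ∉ normalizer (Q : Set T) := by
      intro hN
      have h1 := (hUc _ hN u₀).mpr hu₀
      rw [rX_apply c haa f2, rl_apply, hua, f1, f4, one_smul, mul_zero, zero_mul, add_zero,
        zero_smul, sub_zero] at h1
      have h3 : b ∈ U := by
        have h4 := U.sub_mem h1 hu₀
        rwa [add_sub_cancel_left] at h4
      have h4 := hUU u₂ hu₂ b h3
      rw [f3] at h4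
      exact one_ne_zero h4
    have hcard := hQ.card _ htN
    -- the subspace
    obtain ⟨f, hf⟩ : ∃ f : U →ₗ[K] K × K, f = ((B a).prod (B b)).comp U.subtype := ⟨_, rfl⟩
    have hfa : ∀ x ∈ LinearMap.ker f, B a (x : V) = 0 ∧ B b (x : V) = 0 := by
      intro x hx
      rw [hf] at hx
      have h1 : ((B a).prod (B b)) (x : V) = 0 := hx
      exact ⟨congrArg Prod.fst h1, congrArg Prod.snd h1⟩
    have hker : 3 ≤ finrank K (LinearMap.ker f) := by
      have h1 := f.finrank_range_add_finrank_ker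
      have h3 : finrank K (LinearMap.range f) ≤ 2 := by
        have h4 := Submodule.finrank_le (LinearMap.range f)
        rw [Module.finrank_prod, Module.finrank_self] at h4
        omega
      omega
    obtain ⟨w₀, hw₀0⟩ : ∃ w₀ : LinearMap.ker f, w₀ ≠ 0 := by
      by_contra hcon
      push Not at hcon
      haveI : Subsingleton (LinearMap.ker f) := ⟨fun x y => by rw [hcon x, hcon y]⟩
      have h4 := Module.finrank_zero_of_subsingleton (R := K) (M := LinearMap.ker f)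
      omega
    obtain ⟨u, hu⟩ : ∃ u : V, u = ((w₀ : U) : V) := ⟨_, rfl⟩
    have huU : u ∈ U := by rw [hu]; exact (w₀ : U).2
    have hu0 : u ≠ 0 := by
      rw [hu]
      intro h0
      exact hw₀0 (Subtype.ext (Subtype.ext h0))
    have hus : B u u = 0 := hUU u huU u huU
    obtain ⟨u', hu'⟩ := hB.exists_one hu0
    have hmem : ∀ w : LinearMap.ker f, B u ((w : U) : V) = 0 := fun w => hUU u huU _ (w : U).2
    have hfix : ∀ w : LinearMap.ker f, (rX B X a b : V ≃ₗ[K] V) ((w : U) : V) = ((w : U) : V) := by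
      intro w
      obtain ⟨h1, h3⟩ := hfa w w.2
      rw [rX_apply c haa f2, rl_apply, hB.symm a, hB.symm b, h1, h3, mul_zero, add_zero, zero_smul,
        zero_smul, add_zero, sub_zero]
    have hin : ∀ w : LinearMap.ker f, π (rX B X u ((w : U) : V)) ∈
        Q ⊓ centralizer {π (rX B X a b)} := by
      intro w
      refine ⟨hrQ u huU _ (by rw [hUo]; exact (w : U).2), mem_centralizer_iff.mpr ?_⟩
      rintro _ rfl
      rw [← map_mul, ← map_mul]
      congr 1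
      rw [← mul_inv_eq_iff_eq_mul, rX_conj c _ hus (hmem w), hfix, hu, hfix]
    let F' : LinearMap.ker f → (Q ⊓ centralizer {π (rX B X a b)} : Subgroup T) × K :=
      fun w => (⟨_, hin w⟩, B u' ((w : U) : V))
    have hinj : Function.Injective F' := by
      intro w w' hww
      have h1 : π (rX B X u ((w : U) : V)) = π (rX B X u ((w' : U) : V)) :=
        congrArg (fun z : (Q ⊓ centralizer {π (rX B X a b)} : Subgroup T) × K => (z.1 : T)) hww
      have h3 : B u' ((w : U) : V) = B u' ((w' : U) : V) := congrArg Prod.snd hww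
      obtain ⟨k, hk⟩ := rX_inj c hu0 hus (hmem w) (hmem w')
        (pel_inj h (rX_pel c hus (hmem w)) (rX_pel c hus (hmem w')) h1)
      rw [hk, map_add, map_smul, hB.symm u u', hu', smul_eq_mul, mul_one] at h3
      have h4 : k = 0 := add_eq_left.mp h3
      rw [h4, zero_smul, add_zero] at hk
      exact Subtype.ext (Subtype.ext hk)
    have hc1 := Nat.card_le_card_of_injective F' hinj
    rw [Nat.card_prod, Module.natCard_eq_pow_finrank (K := K) (V := LinearMap.ker f)] at hc1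
    have hK1 : 1 < Nat.card K := Finite.one_lt_card
    have hc2 : Nat.card K ^ 3 ≤ Nat.card K ^ finrank K (LinearMap.ker f) :=
      Nat.pow_le_pow_right (by omega) hker
    have hc3 := Nat.mul_le_mul_right (Nat.card K) hcard
    have hc4 : Nat.card K * Nat.card K < Nat.card K ^ 3 := by
      have h9 : Nat.card K * Nat.card K = Nat.card K ^ 2 := (pow_two _).symm
      rw [h9]
      exact Nat.pow_lt_pow_right hK1 (by norm_num)
    omega
  · -- not abelian
    have h1 : ∃ y ∈ B.orthogonal U, B y y ≠ 0 := by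
      by_contra hcon
      push Not at hcon
      apply hUp
      intro x hx
      rw [← LinearMap.BilinForm.orthogonal_orthogonal (nondeg hB) (isRefl hB) U]
      intro y hy
      exact orth_of_sing hB c.two (hcon y hy) (hcon x hx)
        (hcon _ (Submodule.add_mem _ hy hx))
    obtain ⟨y, hy, hyy⟩ := h1
    exact not_comm hu₀0 hu₁k (hUU u₁ hu₁ u₁ hu₁) hu₀s (hUU u₁ hu₁ u₀ hu₀) (hy u₁ hu₁)
      (hy u₀ hu₀) hyy c (hQ.ab _ (hrQ u₁ hu₁ y hy) _ (hrQ u₀ hu₀ y hy)) h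

end Cls

end Vale.Agent.P180.R2.H589.Oa
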