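import Vale.Agent.P180.R2.H589.Oa.Bas
import Vale.Agent.P180.R2.H589.Bt.Loc

/-!
P180: automorphisms of orthogonal groups: the radicals of the stabilisers of the singular points.
-/

set_option linter.all false

namespace Vale.Agent.P180.R2.H589.Oa

open Subgroup Module
open LinearMap (BilinForm)
open Vale.Agent.P180.R2.H589.Sch
open Vale.Agent.P180.R2.H589.Or (Sm hypo hypo_apply hypo_sm splitE splitE_iso splitE_apply BW_sm
  pr_mem Cl)
open Vale.Agent.P180.R2.H589.Sp (SpG mem_SpG WW BW BW_apply lv lv_apply lv_mul lv_one lv_inv oo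
  oo_ne finite_gl)

section Def

variable {K V : Type*} [Field K] [AddCommGroup V] [Module K V]

/-- the hypotheses on the group -/
structure Ctx (p : ℕ) (B : BilinForm K V) (X : Subgroup (V ≃ₗ[K] V)) : Prop where
  sm : Sm B
  two : (2 : K) ≠ 0
  odd : Odd p
  cl : Cl B X

/-- the quotient by the scalars -/
structure PiC {X : Subgroup (V ≃ₗ[K] V)} {T : Type*} [Group T] (π : X →* T) : Prop where
  surj : Function.Surjective π
  ker : ∀ x : X, π x = 1 ↔ ∃ c : K, ∀ v, (x : V ≃ₗ[K] V) v = c • v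

/-- the elements of the radicals -/
noncomputable def rX (B : BilinForm K V) (X : Subgroup (V ≃ₗ[K] V)) (u y : V) : X := by
  classical exact if h : ∃ g : X, ∀ x, (g : V ≃ₗ[K] V) x = rl B u y x then h.choose else 1

end Def

section Basic

variable {K V : Type*} [Field K] [AddCommGroup V] [Module K V] {p : ℕ} [hp : Fact p.Prime]
  [CharP K p] {B : BilinForm K V} {X : Subgroup (V ≃ₗ[K] V)} (c : Ctx p B X)

include c

omit hp [CharP K p] in
omit c in
theorem ext_X {x y : X} (h : ∀ v, (x : V ≃ₗ[K] V) v = (y : V ≃ₗ[K] V) v) : x = y :=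
  Subtype.ext (LinearEquiv.ext h)

include hp in
theorem rX_apply {u y : V} (hu : B u u = 0) (hy : B u y = 0) (x : V) :
    (rX B X u y : V ≃ₗ[K] V) x = rl B u y x := by
  classical
  obtain ⟨g, hg, hpg, hgx⟩ := exists_rl (p := p) c.sm c.two hu hy
  have h : ∃ g : X, ∀ x, (g : V ≃ₗ[K] V) x = rl B u y x := ⟨⟨g, c.cl.pel c.odd hg hpg⟩, hgx⟩
  have h1 : rX B X u y = h.choose := dif_pos h
  rw [h1]
  exact h.choose_spec x

include hp in
theorem rX_pel {u y : V} (hu : B u u = 0) (hy : B u y = 0) : Pel p (rX B X u y) := by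
  obtain ⟨g, hg, ⟨n, hn⟩, hgx⟩ := exists_rl (p := p) c.sm c.two hu hy
  refine ⟨n, ?_⟩
  apply Subtype.ext
  have h1 : ((rX B X u y : X) : V ≃ₗ[K] V) = g := by
    apply LinearEquiv.ext
    intro x
    rw [rX_apply c hu hy, hgx]
  rw [Subgroup.coe_pow, h1, hn]
  rfl

include hp in
theorem rX_mul {u y y' : V} (hu : B u u = 0) (hy : B u y = 0) (hy' : B u y' = 0) :
    rX B X u y * rX B X u y' = rX B X u (y + y') := by
  apply ext_X
  intro x
  rw [Subgroup.coe_mul, LinearEquiv.mul_apply, rX_apply c hu hy, rX_apply c hu hy',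
    rX_apply c hu (by rw [map_add, hy, hy', add_zero]), rl_add c.sm c.two hu hy hy']

include hp in
theorem rX_zero {u : V} (hu : B u u = 0) : rX B X u 0 = 1 := by
  apply ext_X
  intro x
  rw [rX_apply c hu (map_zero _), rl_zero]
  rfl

include hp in
theorem rX_inv {u y : V} (hu : B u u = 0) (hy : B u y = 0) :
    (rX B X u y)⁻¹ = rX B X u (-y) := by
  symm
  apply eq_inv_of_mul_eq_one_left
  rw [rX_mul c hu (by rw [map_neg, hy, neg_zero]) hy, neg_add_cancel, rX_zero c hu]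

theorem iso (g : X) (x y : V) : B ((g : V ≃ₗ[K] V) x) ((g : V ≃ₗ[K] V) y) = B x y :=
  mem_SpG.mp (c.cl.1 g.2) x y

include hp in
theorem rX_conj (g : X) {u y : V} (hu : B u u = 0) (hy : B u y = 0) :
    g * rX B X u y * g⁻¹ = rX B X ((g : V ≃ₗ[K] V) u) ((g : V ≃ₗ[K] V) y) := by
  rw [mul_inv_eq_iff_eq_mul]
  apply ext_X
  intro x
  rw [Subgroup.coe_mul, Subgroup.coe_mul, LinearEquiv.mul_apply, LinearEquiv.mul_apply,
    rX_apply c hu hy, rX_apply c (by rw [iso c, hu]) (by rw [iso c, hy]), rl_apply, rl_apply,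
    iso c, iso c, iso c]
  simp only [map_add, map_sub, map_smul]

include hp in
theorem rX_inj {u y y' : V} (hu0 : u ≠ 0) (hu : B u u = 0) (hy : B u y = 0) (hy' : B u y' = 0)
    (h : rX B X u y = rX B X u y') : ∃ k : K, y = y' + k • u := by
  obtain ⟨x, hx⟩ := c.sm.exists_one hu0
  have h1 := congrArg (fun g : X => (g : V ≃ₗ[K] V) x) h
  simp only [rX_apply c hu hy, rX_apply c hu hy', rl_apply] at h1
  rw [c.sm.symm u x, hx, one_smul, one_smul] at h1
  have h3 : y = (x + y - (B x y + 2⁻¹ * B y y * 1) • u) - x + (B x y + 2⁻¹ * B y y * 1) • u := by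
    abel
  refine ⟨(B x y + 2⁻¹ * B y y * 1) - (B x y' + 2⁻¹ * B y' y' * 1), ?_⟩
  calc y = (x + y - (B x y + 2⁻¹ * B y y * 1) • u) - x + (B x y + 2⁻¹ * B y y * 1) • u := h3
    _ = (x + y' - (B x y' + 2⁻¹ * B y' y' * 1) • u) - x + (B x y + 2⁻¹ * B y y * 1) • u := by
      rw [h1]
    _ = _ := by module

include hp in
theorem rX_shift {u y : V} (hu : B u u = 0) (hy : B u y = 0) (k : K) :
    rX B X u (y + k • u) = rX B X u y := by
  have h1 : B u (y + k • u) = 0 := by rw [map_add, map_smul, hu, hy, smul_zero, add_zero]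
  apply ext_X
  intro x
  rw [rX_apply c hu h1, rX_apply c hu hy, rl_apply, rl_apply]
  simp only [map_add, map_smul, LinearMap.add_apply, LinearMap.smul_apply, smul_eq_mul, hu, hy,
    c.sm.symm u y, mul_zero, add_zero, zero_add]
  module

include hp in
theorem rX_smul {u y : V} (hu : B u u = 0) (hy : B u y = 0) (k : K) :
    rX B X (k • u) y = rX B X u (k • y) := by
  have h1 : B (k • u) (k • u) = 0 := by
    rw [map_smul, map_smul, LinearMap.smul_apply, hu, smul_zero, smul_zero]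
  have h3 : B (k • u) y = 0 := by rw [map_smul, LinearMap.smul_apply, hy, smul_zero]
  have h4 : B u (k • y) = 0 := by rw [map_smul, hy, smul_zero]
  apply ext_X
  intro x
  rw [rX_apply c h1 h3, rX_apply c hu h4, rl_apply, rl_apply]
  simp only [map_smul, LinearMap.smul_apply, smul_eq_mul]
  module

include hp in
theorem rX_swap {u w : V} (hu : B u u = 0) (hw : B w w = 0) (h : B u w = 0) :
    rX B X u w = rX B X w (-u) := by
  have h1 : B w (-u) = 0 := by rw [map_neg, c.sm.symm u w, h, neg_zero]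
  apply ext_X
  intro x
  rw [rX_apply c hu h, rX_apply c hw h1, rl_apply, rl_apply]
  simp only [map_neg, LinearMap.neg_apply, hu, hw, mul_zero, zero_mul, neg_zero, add_zero]
  module

include hp in
/-- the intersection of two radicals -/
theorem rX_eq {u y w z : V} (hu0 : u ≠ 0) (hw0 : w ≠ 0) (hu : B u u = 0) (hw : B w w = 0)
    (hy : B u y = 0) (hz : B w z = 0) (huw : ∀ k : K, w ≠ k • u)
    (h : rX B X u y = rX B X w z) : ∃ a b : K, y = a • u + b • w ∧ b * B u w = 0 ∧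
      B y y = 0 := by
  obtain ⟨a, b, hab⟩ := rl_eq c.sm hu0 hu hy huw hw0 (z := z) (fun x => by
    rw [← rX_apply c hu hy, h, rX_apply c hw hz])
  have h1 : b * B u w = 0 := by
    rw [hab, map_add, map_smul, map_smul, hu, smul_zero, zero_add, smul_eq_mul] at hy
    exact hy
  refine ⟨a, b, hab, h1, ?_⟩
  rw [hab]
  simp only [map_add, map_smul, LinearMap.add_apply, LinearMap.smul_apply, smul_eq_mul, hu, hw,
    c.sm.symm u w]
  linear_combination 2 * a * h1

variable [Finite K] [Module.Finite K V]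

include hp in
/-- **Transitivity on the singular points.** -/
theorem trans (hd : 3 ≤ finrank K V) {u w : V} (hu0 : u ≠ 0) (hw0 : w ≠ 0) (hu : B u u = 0)
    (hw : B w w = 0) : ∃ (g : X) (k : K), k ≠ 0 ∧ (g : V ≃ₗ[K] V) u = k • w := by
  obtain ⟨z₀, hz₀, h1, h3⟩ := exists_sing_ne c.sm c.two hd hu0 hw0 hu hw
  obtain ⟨z, hz⟩ : ∃ z, z = (B u z₀)⁻¹ • z₀ := ⟨_, rfl⟩
  obtain ⟨k, hk⟩ : ∃ k, k = (B w z)⁻¹ := ⟨_, rfl⟩
  have e1 : B z z = 0 := by
    rw [hz, map_smul, map_smul, LinearMap.smul_apply, hz₀, smul_zero, smul_zero]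
  have e2 : B u z = 1 := by
    rw [hz, map_smul, smul_eq_mul, inv_mul_cancel₀ h1]
  have e3 : B w z ≠ 0 := by
    rw [hz, map_smul, smul_eq_mul]
    exact mul_ne_zero (inv_ne_zero h1) h3
  have e4 : B (k • w) z = 1 := by
    rw [map_smul, LinearMap.smul_apply, hk, smul_eq_mul, inv_mul_cancel₀ e3]
  have e5 : B (k • w) (k • w) = 0 := by
    rw [map_smul, map_smul, LinearMap.smul_apply, hw, smul_zero, smul_zero]
  have e6 : B z (k • w - u) = 0 := by
    rw [map_sub, c.sm.symm (k • w) z, c.sm.symm u z, e4, e2, sub_self]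
  refine ⟨rX B X z (k • w - u), k, by rw [hk]; exact inv_ne_zero e3, ?_⟩
  rw [rX_apply c e1 e6, rl_apply, e2, one_smul, mul_one]
  have e7 : B u (k • w - u) + 2⁻¹ * B (k • w - u) (k • w - u) = 0 := by
    have h2 := c.two
    simp only [map_sub, LinearMap.sub_apply, hu, e5, c.sm.symm u (k • w)]
    rw [c.sm.symm (k • w) u]
    field_simp
    ring
  rw [e7, zero_smul, sub_zero]
  abel

end Basic

section T

variable {K V : Type*} [Field K] [AddCommGroup V] [Module K V] {p : ℕ} [hp : Fact p.Prime]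
  [CharP K p] {B : BilinForm K V} {X : Subgroup (V ≃ₗ[K] V)} (c : Ctx p B X)
  {T : Type*} [Group T]

/-- the radicals -/
noncomputable def RT (B : BilinForm K V) {X : Subgroup (V ≃ₗ[K] V)} (π : X →* T) (u : V) :
    Subgroup T := Subgroup.closure {t | ∃ y, B u y = 0 ∧ t = π (rX B X u y)}

variable {π : X →* T}

include hp c in
theorem mem_RT {u : V} (hu : B u u = 0) {t : T} :
    t ∈ RT B π u ↔ ∃ y, B u y = 0 ∧ t = π (rX B X u y) := by
  constructor
  · intro ht
    refine Subgroup.closure_induction (fun x hx => hx) ?_ ?_ ?_ ht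
    · exact ⟨0, map_zero _, by rw [rX_zero c hu, map_one]⟩
    · rintro _ _ - - ⟨y, hy, rfl⟩ ⟨y', hy', rfl⟩
      exact ⟨y + y', by rw [map_add, hy, hy', add_zero], by rw [← map_mul, rX_mul c hu hy hy']⟩
    · rintro _ - ⟨y, hy, rfl⟩
      exact ⟨-y, by rw [map_neg, hy, neg_zero], by rw [← map_inv, rX_inv c hu hy]⟩
  · exact fun h => Subgroup.subset_closure h

omit hp [CharP K p] in
theorem rX_mem_RT {u y : V} (hy : B u y = 0) : π (rX B X u y) ∈ RT B π u :=
  Subgroup.subset_closure ⟨y, hy, rfl⟩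

include hp c

theorem RT_comm {u : V} (hu : B u u = 0) {s t : T} (hs : s ∈ RT B π u) (ht : t ∈ RT B π u) :
    s * t = t * s := by
  obtain ⟨y, hy, rfl⟩ := (mem_RT c hu).mp hs
  obtain ⟨z, hz, rfl⟩ := (mem_RT c hu).mp ht
  rw [← map_mul, ← map_mul, rX_mul c hu hy hz, rX_mul c hu hz hy, add_comm]

theorem isPGroup_RT {u : V} (hu : B u u = 0) : IsPGroup p (RT B π u) := by
  rw [Bt.isPGroup_iff]
  intro t ht
  obtain ⟨y, hy, rfl⟩ := (mem_RT c hu).mp ht
  exact (rX_pel c hu hy).map π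

theorem RT_smul {k : K} (hk : k ≠ 0) {u : V} (hu : B u u = 0) : RT B π (k • u) = RT B π u := by
  have hu' : B (k • u) (k • u) = 0 := by
    rw [map_smul, map_smul, LinearMap.smul_apply, hu, smul_zero, smul_zero]
  ext t
  rw [mem_RT c hu, mem_RT c hu']
  constructor
  · rintro ⟨y, hy, rfl⟩
    have hy' : B u y = 0 := by
      rw [map_smul, LinearMap.smul_apply, smul_eq_mul] at hy
      exact (mul_eq_zero.mp hy).resolve_left hk
    exact ⟨k • y, by rw [map_smul, hy', smul_zero], by rw [rX_smul c hu hy']⟩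
  · rintro ⟨y, hy, rfl⟩
    have hy' : B u (k⁻¹ • y) = 0 := by rw [map_smul, hy, smul_zero]
    refine ⟨k⁻¹ • y, by rw [map_smul, map_smul, LinearMap.smul_apply, hy, smul_zero, smul_zero],
      ?_⟩
    rw [rX_smul c hu hy', smul_smul, mul_inv_cancel₀ hk, one_smul]

theorem RT_conj (g : X) {u : V} (hu : B u u = 0) {t : T} (ht : t ∈ RT B π u) :
    π g * t * (π g)⁻¹ ∈ RT B π ((g : V ≃ₗ[K] V) u) := by
  obtain ⟨y, hy, rfl⟩ := (mem_RT c hu).mp ht
  rw [← map_inv, ← map_mul, ← map_mul, rX_conj c g hu hy]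
  exact rX_mem_RT (by rw [iso c, hy])

theorem RT_conj_iff' (g : X) {u : V} (hu : B u u = 0) {t : T} :
    (π g)⁻¹ * t * π g ∈ RT B π u ↔ t ∈ RT B π ((g : V ≃ₗ[K] V) u) := by
  constructor
  · intro h
    have h1 := RT_conj c g hu h
    have h3 : π g * ((π g)⁻¹ * t * π g) * (π g)⁻¹ = t := by group
    rwa [h3] at h1
  · intro h
    have h1 := RT_conj c g⁻¹ (by rw [iso c, hu]) h
    have h3 : ((g⁻¹ : X) : V ≃ₗ[K] V) ((g : V ≃ₗ[K] V) u) = u :=
      (g : V ≃ₗ[K] V).symm_apply_apply u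
    rwa [h3, map_inv, inv_inv] at h1

variable (h : PiC π)

omit hp [CharP K p] in
omit c in
include h in
theorem PiC.ker_le : π.ker ≤ center X := by
  intro x hx
  obtain ⟨a, ha⟩ := (h.ker x).mp hx
  rw [mem_center_iff]
  intro y
  apply ext_X
  intro v
  rw [Subgroup.coe_mul, Subgroup.coe_mul, LinearEquiv.mul_apply, LinearEquiv.mul_apply, ha, ha,
    map_smul]

omit c in
theorem scalar_pow {g : V ≃ₗ[K] V} {a : K} (ha : ∀ v, g v = a • v) (n : ℕ) (v : V) :
    (g ^ n) v = a ^ n • v := by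
  induction n with
  | zero => rw [pow_zero, pow_zero, one_smul]; rfl
  | succ n ih => rw [pow_succ', LinearEquiv.mul_apply, ih, map_smul, ha, smul_smul, pow_succ]

omit c in
/-- scalars which are `p`-elements -/
theorem scalar_pel {g : V ≃ₗ[K] V} {a : K} (ha : ∀ v, g v = a • v) (hg : Pel p g) : g = 1 := by
  obtain ⟨n, hn⟩ := hg
  apply LinearEquiv.ext
  intro v
  by_cases hv : v = 0
  · rw [hv, map_zero]; rfl
  have h1 := scalar_pow ha (p ^ n) v
  rw [hn] at h1
  have h3 : a ^ p ^ n = 1 := by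
    have h4 : (a ^ p ^ n - 1) • v = 0 := by
      rw [sub_smul, one_smul, ← h1]
      exact sub_self v
    exact sub_eq_zero.mp ((smul_eq_zero.mp h4).resolve_right hv)
  have h4 : (a - 1) ^ p ^ n = 0 := by rw [sub_pow_char_pow, h3, one_pow, sub_self]
  have h5 : a = 1 := sub_eq_zero.mp
    (pow_eq_zero_iff (pow_ne_zero n hp.out.ne_zero) |>.mp h4)
  rw [ha, h5, one_smul]
  rfl

omit c in
include h in
theorem not_dvd_ker [Finite V] : ¬ p ∣ Nat.card π.ker := by
  haveI : Finite (V ≃ₗ[K] V) := finite_gl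
  intro hdv
  obtain ⟨w, hw⟩ := exists_prime_orderOf_dvd_card' p hdv
  obtain ⟨a, ha⟩ := (h.ker w).mp w.2
  have h1 : w ^ p = 1 := by rw [← hw]; exact pow_orderOf_eq_one w
  have h3 : ((w : X) : V ≃ₗ[K] V) = 1 := by
    refine scalar_pel (p := p) ha ⟨1, ?_⟩
    rw [pow_one]
    exact congrArg (fun u : π.ker => ((u : X) : V ≃ₗ[K] V)) h1
  have h4 : w = 1 := Subtype.ext (Subtype.ext h3)
  rw [h4, orderOf_one] at hw
  exact hp.out.one_lt.ne hw

variable [Finite V]

include h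

omit c in
theorem pel_inj {x y : X} (hx : Pel p x) (hy : Pel p y) (hxy : π x = π y) : x = y := by
  haveI : Finite (V ≃ₗ[K] V) := finite_gl
  exact pel_unique (f := π) h.ker_le (not_dvd_ker h) hx hy hxy

omit c in
theorem comm_of_pi {g r : X} (hr : Pel p r) (hgr : π g * π r = π r * π g) :
    g * r * g⁻¹ = r := by
  refine pel_inj h (hr.conj g) hr ?_
  rw [map_mul, map_mul, map_inv, hgr, mul_inv_cancel_right]

/-- the intersection of two radicals -/
theorem RT_inf {u w : V} (hu0 : u ≠ 0) (hw0 : w ≠ 0) (hu : B u u = 0) (hw : B w w = 0)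
    (huw : ∀ k : K, w ≠ k • u) :
    (∃ t ∈ RT B π u, t ∈ RT B π w ∧ t ≠ 1) ↔ B u w = 0 := by
  constructor
  · rintro ⟨t, ht, ht', ht1⟩
    obtain ⟨y, hy, hty⟩ := (mem_RT c hu).mp ht
    obtain ⟨z, hz, htz⟩ := (mem_RT c hw).mp ht'
    obtain ⟨a, b, hab, hb, -⟩ := rX_eq c hu0 hw0 hu hw hy hz huw
      (pel_inj h (rX_pel c hu hy) (rX_pel c hw hz) (by rw [← hty, htz]))
    by_contra hne
    have hb0 : b = 0 := (mul_eq_zero.mp hb).resolve_right hne
    rw [hb0, zero_smul, add_zero] at hab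
    apply ht1
    rw [hty, hab]
    have h3 := rX_shift c (X := X) hu (map_zero _ : B u 0 = 0) a
    rw [zero_add] at h3
    rw [h3, rX_zero c hu, map_one]
  · intro h0
    refine ⟨π (rX B X u w), rX_mem_RT h0, ?_, ?_⟩
    · rw [rX_swap c hu hw h0]
      exact rX_mem_RT (by rw [map_neg, c.sm.symm u w, h0, neg_zero])
    · intro h1
      have h3 : rX B X u w = rX B X u 0 := by
        refine pel_inj h (rX_pel c hu h0) (rX_pel c hu (map_zero _)) ?_
        rw [h1, rX_zero c hu, map_one]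
      obtain ⟨k, hk⟩ := rX_inj c hu0 hu h0 (map_zero _) h3
      rw [zero_add] at hk
      exact huw k hk

theorem RT_eq [Module.Finite K V] (hd : 3 ≤ finrank K V) {u w : V} (hu0 : u ≠ 0) (hw0 : w ≠ 0)
    (hu : B u u = 0) (hw : B w w = 0) (hle : RT B π u ≤ RT B π w) : ∃ k : K, w = k • u := by
  by_contra hcon
  push Not at hcon
  obtain ⟨y, hy, hyy⟩ := exists_nonsing c.sm c.two hd hu0 hu
  obtain ⟨z, hz, hyz⟩ := (mem_RT c hw).mp (hle (rX_mem_RT hy))
  obtain ⟨a, b, -, -, h1⟩ := rX_eq c hu0 hw0 hu hw hy hz hcon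
    (pel_inj h (rX_pel c hu hy) (rX_pel c hw hz) hyz)
  exact hyy h1

theorem line_of_norm [Module.Finite K V] (hd : 3 ≤ finrank K V) {g : X} {u : V} (hu0 : u ≠ 0)
    (hu : B u u = 0) (hn : ∀ t ∈ RT B π u, π g * t * (π g)⁻¹ ∈ RT B π u) :
    ∃ k : K, k ≠ 0 ∧ (g : V ≃ₗ[K] V) u = k • u := by
  have hgu : B ((g : V ≃ₗ[K] V) u) ((g : V ≃ₗ[K] V) u) = 0 := by rw [iso c, hu]
  have hgu0 : (g : V ≃ₗ[K] V) u ≠ 0 := fun h0 => hu0 ((g : V ≃ₗ[K] V).map_eq_zero_iff.mp h0)
  obtain ⟨k, hk⟩ := RT_eq c h hd hgu0 hu0 hgu hu (fun t ht => by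
    have h1 := hn _ ((RT_conj_iff' c g hu).mpr ht)
    have h3 : π g * ((π g)⁻¹ * t * π g) * (π g)⁻¹ = t := by group
    rwa [h3] at h1)
  have hk0 : k ≠ 0 := by
    rintro rfl
    rw [zero_smul] at hk
    exact hu0 hk
  refine ⟨k⁻¹, inv_ne_zero hk0, ?_⟩
  nth_rewrite 2 [hk]
  rw [smul_smul, inv_mul_cancel₀ hk0, one_smul]

omit hp [CharP K p] in
omit [Finite V] in
/-- Isometries which stabilise the singular points. -/
theorem eq_of_points [Finite K] [Module.Finite K V] (hd : 5 ≤ finrank K V) {x y : X}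
    (hxy : ∀ v : V, v ≠ 0 → B v v = 0 → ∃ k : K, (x : V ≃ₗ[K] V) v = k • (y : V ≃ₗ[K] V) v) :
    π x = π y := by
  have h1 : ∀ v : V, v ≠ 0 → B v v = 0 → ∃ k : K, ((y⁻¹ * x : X) : V ≃ₗ[K] V) v = k • v := by
    intro v hv0 hv
    obtain ⟨k, hk⟩ := hxy v hv0 hv
    refine ⟨k, ?_⟩
    change (y : V ≃ₗ[K] V).symm ((x : V ≃ₗ[K] V) v) = k • v
    rw [hk, map_smul, LinearEquiv.symm_apply_apply]
  obtain ⟨z, hz⟩ : ∃ z : X, z = y⁻¹ * x := ⟨_, rfl⟩
  rw [← hz] at h1
  have h3 : ∀ v : V, ∃ k : K, v ≠ 0 → B v v = 0 → (z : V ≃ₗ[K] V) v = k • v := by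
    intro v
    by_cases hv : v ≠ 0 ∧ B v v = 0
    · obtain ⟨k, hk⟩ := h1 v hv.1 hv.2
      exact ⟨k, fun _ _ => hk⟩
    · exact ⟨0, fun h3 h4 => absurd ⟨h3, h4⟩ hv⟩
  choose φ hφ using h3
  have h4 : ∀ {v w : V}, v ≠ 0 → w ≠ 0 → B v v = 0 → B w w = 0 → φ v = φ w := by
    intro v w hv0 hw0 hv hw
    refine sing_const c.sm c.two hd φ ?_ hv0 hw0 hv hw
    intro y z' hy0 hz0 hy hz hyz hk
    have e0 : y + z' ≠ 0 := by
      intro h5
      apply hk (-1)
      rw [neg_one_smul]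
      exact eq_neg_of_add_eq_zero_right h5
    have e1 : B (y + z') (y + z') = 0 := by
      simp only [map_add, LinearMap.add_apply, hy, hz, hyz, c.sm.symm y z', add_zero]
    have e2 := hφ (y + z') e0 e1
    rw [map_add, hφ y hy0 hy, hφ z' hz0 hz] at e2
    have e3 : (φ y - φ (y + z')) • y = (φ (y + z') - φ z') • z' := by
      have e4 : φ y • y + φ z' • z' - φ (y + z') • (y + z') = 0 := by rw [e2, sub_self]
      have e5 : (φ y - φ (y + z')) • y - (φ (y + z') - φ z') • z' =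
        φ y • y + φ z' • z' - φ (y + z') • (y + z') := by module
      rw [e4] at e5
      exact sub_eq_zero.mp e5
    have e6 : φ (y + z') - φ z' = 0 := by
      by_contra e7
      apply hk ((φ (y + z') - φ z')⁻¹ * (φ y - φ (y + z')))
      rw [mul_smul, e3, smul_smul, inv_mul_cancel₀ e7, one_smul]
    rw [e6, zero_smul] at e3
    have e7 := (smul_eq_zero.mp e3).resolve_right hy0
    rw [sub_eq_zero.mp e7, sub_eq_zero.mp e6]
  obtain ⟨e, he0, he⟩ := exists_sing c.sm c.two (by omega : 3 ≤ finrank K V)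
  obtain ⟨f, hef, hf⟩ := c.sm.exists_pair c.two he0 he
  have h5 : ∀ v, (z : V ≃ₗ[K] V) v = φ e • v := by
    intro v
    let H : AddSubgroup V :=
      { carrier := {v | (z : V ≃ₗ[K] V) v = φ e • v}
        zero_mem' := by
          change (z : V ≃ₗ[K] V) 0 = φ e • (0 : V)
          rw [map_zero, smul_zero]
        add_mem' := by
          intro a b ha hb
          change (z : V ≃ₗ[K] V) (a + b) = φ e • (a + b)
          rw [map_add, ha, hb, smul_add]
        neg_mem' := by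
          intro a ha
          change (z : V ≃ₗ[K] V) (-a) = φ e • (-a)
          rw [map_neg, ha, smul_neg] }
    refine sum_sing c.sm c.two he hf hef H ?_ v
    intro v hv
    change (z : V ≃ₗ[K] V) v = φ e • v
    by_cases hv0 : v = 0
    · rw [hv0, map_zero, smul_zero]
    · rw [hφ v hv0 hv, h4 hv0 he0 hv he]
  have h6 := (h.ker z).mpr ⟨_, h5⟩
  rw [hz, map_mul, map_inv, inv_mul_eq_one] at h6
  exact h6.symm

end T

end Vale.Agent.P180.R2.H589.Oa
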