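import Vale.Agent.P180.R2.H589.Oa.Cls

/-!
P180: automorphisms of orthogonal groups: the radical of the stabiliser of the first point.
-/

set_option linter.all false

namespace Vale.Agent.P180.R2.H589.Oa

open Subgroup Module
open LinearMap (BilinForm)
open Vale.Agent.P180.R2.H589.Sch
open Vale.Agent.P180.R2.H589.Or (Sm hypo hypo_apply hypo_sm splitE splitE_iso splitE_apply BW_sm
  pr_mem Cl qo qo_apply qo_mem qo_mul qo_zero qo_inv qo_pel qo_inj lv_mem lv_qo StO mem_StO lamF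
  lamF_spec blF blF_one blF_mul blF_iso bl lam bl_apply lam_val lam_spec exists_qo exists_decomp
  lv_St)
open Vale.Agent.P180.R2.H589.Sp (SpG mem_SpG WW BW BW_apply lv lv_apply lv_mul lv_one lv_inv oo
  oo_ne finite_gl)

section Irr

variable {K W : Type*} [Field K] [Finite K] [AddCommGroup W] [Module K W] [Module.Finite K W]
  {p : ℕ} [hp : Fact p.Prime] [CharP K p] {B : BilinForm K W}

include hp in
/-- **Irreducibility.** -/
theorem irr (hB : Sm B) (h2 : (2 : K) ≠ 0) (hd : 3 ≤ finrank K W) {E : Submodule K W}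
    (hE : ∀ m ∈ SpG B, Pel p m → ∀ x ∈ E, m x ∈ E) {x : W} (hx : x ∈ E) (hx0 : x ≠ 0) (w : W) :
    w ∈ E := by
  obtain ⟨e, he0, he⟩ := exists_sing hB h2 hd
  obtain ⟨f, hef, hf⟩ := hB.exists_pair h2 he0 he
  have key : ∀ x ∈ E, ∀ u : W, u ≠ 0 → B u u = 0 → B x u ≠ 0 → u ∈ E := by
    intro x hx u hu0 hu hxu
    obtain ⟨y, hy, hyy⟩ := exists_nonsing hB h2 hd hu0 hu
    have hy' : B u (-y) = 0 := by rw [map_neg, hy, neg_zero]
    obtain ⟨g, hg, hgp, hgx⟩ := exists_rl (p := p) hB h2 hu hy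
    obtain ⟨g', hg', hgp', hgx'⟩ := exists_rl (p := p) hB h2 hu hy'
    have h1 := hE g hg hgp x hx
    have h3 := hE g' hg' hgp' x hx
    rw [hgx] at h1
    rw [hgx'] at h3
    have h4 : x + x - (rl B u y x + rl B u (-y) x) = (B y y * B x u) • u := by
      rw [rl_apply, rl_apply, map_neg, map_neg, map_neg, LinearMap.neg_apply, neg_neg]
      have e1 : B y y * B x u = 2⁻¹ * B y y * B x u + 2⁻¹ * B y y * B x u := by
        field_simp
        ring
      rw [e1]
      module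
    have h5 : (B y y * B x u) • u ∈ E := by
      rw [← h4]
      exact E.sub_mem (E.add_mem hx hx) (E.add_mem h1 h3)
    have h6 := E.smul_mem (B y y * B x u)⁻¹ h5
    rwa [smul_smul, inv_mul_cancel₀ (mul_ne_zero hyy hxu), one_smul] at h6
  -- a singular vector
  obtain ⟨u, hu0, hu, hxu⟩ : ∃ u : W, u ≠ 0 ∧ B u u = 0 ∧ B x u ≠ 0 := by
    by_contra hcon
    push Not at hcon
    apply hx0
    apply hB.nd
    intro y
    have h1 := sum_sing hB h2 he hf hef (LinearMap.ker (B x)).toAddSubgroup (fun v hv => by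
      by_cases hv0 : v = 0
      · rw [hv0]; exact map_zero (B x)
      · exact hcon v hv0 hv) y
    exact h1
  have huE := key x hx u hu0 hu hxu
  refine sum_sing hB h2 he hf hef E.toAddSubgroup (fun v hv => ?_) w
  by_cases hv0 : v = 0
  · rw [hv0]; exact E.zero_mem
  obtain ⟨z, hz, huz, hvz⟩ := exists_sing_ne hB h2 hd hu0 hv0 hu hv
  have hz0 : z ≠ 0 := by
    rintro rfl
    rw [map_zero] at huz
    exact huz rfl
  exact key z (key u huE z hz0 hz huz) v hv0 hv (by rw [hB.symm v z]; exact hvz)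

end Irr

section Oo

variable {K W : Type*} [Field K] [AddCommGroup W] [Module K W]
  {p : ℕ} [hp : Fact p.Prime] [CharP K p] {B : BilinForm K W} (hB : Sm B)
  {X : Subgroup ((K × W × K) ≃ₗ[K] (K × W × K))} (c : Ctx p (hypo B) X)

theorem oo_sing (B : BilinForm K W) : hypo B (oo K W) (oo K W) = 0 := by
  rw [hypo_apply]
  change (1 : K) * 0 + 0 * 1 + B 0 0 = 0
  rw [map_zero]
  ring

theorem oo_mid (B : BilinForm K W) (a : K) (y : W) : hypo B (oo K W) (a, y, 0) = 0 := by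
  rw [hypo_apply]
  change (1 : K) * 0 + 0 * a + B 0 y = 0
  rw [map_zero, LinearMap.zero_apply]
  ring

/-- the elements of the radical -/
noncomputable def qX (B : BilinForm K W) (X : Subgroup ((K × W × K) ≃ₗ[K] (K × W × K))) (y : W) :
    X := rX (hypo B) X (oo K W) ((0 : K), y, (0 : K))

include hp hB c

omit hB in
theorem qX_val (y : W) : ((qX B X y : X) : (K × W × K) ≃ₗ[K] (K × W × K)) = qo B y := by
  apply LinearEquiv.ext
  intro x
  rw [qX, rX_apply c (oo_sing B) (oo_mid B 0 y), rl_apply, qo_apply, hypo_apply, hypo_apply,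
    hypo_apply]
  refine Prod.ext ?_ (Prod.ext ?_ ?_)
  · change x.1 + (x.1 * 0 + x.2.2 * 1 + B x.2.1 0) * 0 - ((x.1 * 0 + x.2.2 * 0 + B x.2.1 y) +
      2⁻¹ * ((0 : K) * 0 + 0 * 0 + B y y) * (x.1 * 0 + x.2.2 * 1 + B x.2.1 0)) * 1 =
      x.1 - B x.2.1 y - (2⁻¹ * B y y) * x.2.2
    rw [map_zero]
    ring
  · change x.2.1 + (x.1 * 0 + x.2.2 * 1 + B x.2.1 0) • y - (_ : K) • (0 : W) = x.2.1 + x.2.2 • y
    rw [map_zero, smul_zero, sub_zero]
    congr 2
    ring
  · change x.2.2 + (_ : K) * 0 - (_ : K) * 0 = x.2.2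
    ring

theorem qX_mul (y y' : W) : qX B X y * qX B X y' = qX B X (y + y') := by
  apply Subtype.ext
  rw [Subgroup.coe_mul, qX_val c, qX_val c, qX_val c, qo_mul hB c.two]

omit hB in
theorem qX_zero : qX B X 0 = 1 := by
  apply Subtype.ext
  rw [qX_val c, qo_zero]
  rfl

theorem qX_inv (y : W) : (qX B X y)⁻¹ = qX B X (-y) := by
  apply Subtype.ext
  rw [Subgroup.coe_inv, qX_val c, qX_val c, qo_inv hB c.two]

omit hB in
theorem qX_pel (y : W) : Pel p (qX B X y) := rX_pel c (oo_sing B) (oo_mid B 0 y)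

omit hB in
theorem qX_inj {y y' : W} (h : qX B X y = qX B X y') : y = y' := by
  have h1 := congrArg Subtype.val h
  rw [qX_val c, qX_val c] at h1
  exact qo_inj h1

variable {T : Type*} [Group T] {π : X →* T}

omit hB in
theorem mem_RT_oo {t : T} : t ∈ RT (hypo B) π (oo K W) ↔ ∃ y, t = π (qX B X y) := by
  rw [mem_RT c (oo_sing B)]
  constructor
  · rintro ⟨y, hy, rfl⟩
    refine ⟨y.2.1, ?_⟩
    have h1 : y.2.2 = 0 := by
      rw [hypo_apply] at hy
      change (1 : K) * y.2.2 + 0 * y.1 + B 0 y.2.1 = 0 at hy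
      rw [map_zero, LinearMap.zero_apply, one_mul, zero_mul, add_zero, add_zero] at hy
      exact hy
    have h3 : y = ((0 : K), y.2.1, (0 : K)) + y.1 • oo K W := by
      refine Prod.ext ?_ (Prod.ext ?_ ?_)
      · change y.1 = 0 + y.1 * 1
        ring
      · change y.2.1 = y.2.1 + y.1 • (0 : W)
        rw [smul_zero, add_zero]
      · change y.2.2 = 0 + y.1 * 0
        rw [h1]
        ring
    have h4 := rX_shift c (X := X) (oo_sing B) (oo_mid B 0 y.2.1) y.1
    rw [← h3] at h4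
    rw [h4]
    rfl
  · rintro ⟨y, rfl⟩
    exact ⟨_, oo_mid B 0 y, rfl⟩

variable (h : PiC π) [Finite K] [Module.Finite K W]

include h

omit hB in
theorem pq_inj {y y' : W} (hy : π (qX B X y) = π (qX B X y')) : y = y' := by
  haveI : Finite W := Module.finite_of_finite K
  exact qX_inj c (pel_inj h (qX_pel c y) (qX_pel c y') hy)

/-- elements which normalise the first radical -/
theorem norm_oo (hd : 3 ≤ finrank K W) {g : X} (hn : ∀ t ∈ RT (hypo B) π (oo K W),
    π g * t * (π g)⁻¹ ∈ RT (hypo B) π (oo K W)) :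
    ∃ (m : W ≃ₗ[K] W) (l : Kˣ) (y : W), m ∈ SpG B ∧
      (g : (K × W × K) ≃ₗ[K] (K × W × K)) = lv m l * qo B y := by
  haveI : Finite W := Module.finite_of_finite K
  obtain ⟨k, -, hk⟩ := line_of_norm c h (by
    rw [Module.finrank_prod, Module.finrank_prod, Module.finrank_self]
    omega) oo_ne (oo_sing B) hn
  obtain ⟨y, hy⟩ := exists_decomp hB c.two (⟨g, c.cl.1 g.2, k, hk⟩ : StO B)
  exact ⟨_, _, y, (bl B ⟨g, c.cl.1 g.2, k, hk⟩).2, hy⟩

/-- **The centraliser of the first radical.** -/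
theorem cent_oo (hd : 3 ≤ finrank K W) {t : T}
    (ht : ∀ s ∈ RT (hypo B) π (oo K W), t * s = s * t) : t ∈ RT (hypo B) π (oo K W) := by
  haveI : Finite W := Module.finite_of_finite K
  obtain ⟨g, rfl⟩ := h.surj t
  obtain ⟨m, l, y₀, hm, hg⟩ := norm_oo hB c h hd (g := g) (fun s hs => by
    rw [ht s hs, mul_inv_cancel_right]
    exact hs)
  have h1 : ∀ y, (l : K) • m y = y := by
    intro y
    have h3 := comm_of_pi h (qX_pel c y) (ht _ ((mem_RT_oo c).mpr ⟨y, rfl⟩))
    have h4 := congrArg Subtype.val h3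
    rw [Subgroup.coe_mul, Subgroup.coe_mul, Subgroup.coe_inv, qX_val c, hg] at h4
    have h5 : lv m l * qo B y₀ * qo B y * (lv m l * qo B y₀)⁻¹ =
      lv m l * (qo B y₀ * qo B y * (qo B y₀)⁻¹) * (lv m l)⁻¹ := by group
    have h6 : qo B y₀ * qo B y * (qo B y₀)⁻¹ = qo B y := by
      rw [qo_mul hB c.two, add_comm, ← qo_mul hB c.two, mul_inv_cancel_right]
    rw [h5, h6, lv_qo hm] at h4
    exact qo_inj h4
  obtain ⟨e, he0, he⟩ := exists_sing hB c.two hd
  obtain ⟨y, -, hyy⟩ := exists_nonsing hB c.two hd he0 he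
  have hl2 : (l : K) * l = 1 := by
    have h3 : B ((l : K) • m y) ((l : K) • m y) = (l : K) * l * B y y := by
      rw [map_smul, map_smul, LinearMap.smul_apply, mem_SpG.mp hm, smul_eq_mul, smul_eq_mul]
      ring
    rw [h1] at h3
    exact mul_right_cancel₀ hyy (by rw [← h3, one_mul])
  have hll : ((l⁻¹ : Kˣ) : K) = l := by
    have h3 : (l : K) * ((l⁻¹ : Kˣ) : K) = 1 := Units.mul_inv l
    calc ((l⁻¹ : Kˣ) : K) = (l : K) * l * ((l⁻¹ : Kˣ) : K) := by rw [hl2, one_mul]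
      _ = l * ((l : K) * ((l⁻¹ : Kˣ) : K)) := by ring
      _ = l := by rw [h3, mul_one]
  have hml : ∀ y, m y = (l : K) • y := by
    intro y
    nth_rewrite 2 [← h1 y]
    rw [smul_smul, hl2, one_smul]
  have h3 : π (g * (qX B X y₀)⁻¹) = 1 := by
    refine (h.ker _).mpr ⟨l, fun v => ?_⟩
    have h4 : ((g * (qX B X y₀)⁻¹ : X) : (K × W × K) ≃ₗ[K] (K × W × K)) = lv m l := by
      rw [Subgroup.coe_mul, Subgroup.coe_inv, qX_val c, hg, mul_inv_cancel_right]
    rw [h4, lv_apply, hll, hml]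
    rfl
  rw [map_mul, map_inv, mul_inv_eq_one] at h3
  rw [h3]
  exact (mem_RT_oo c).mpr ⟨y₀, rfl⟩

/-- **The first radical is radical.** -/
theorem isRad_oo (hd : 3 ≤ finrank K W) : Bt.IsRad p (RT (hypo B) π (oo K W)) := by
  haveI : Finite W := Module.finite_of_finite K
  haveI : Finite ((K × W × K) ≃ₗ[K] (K × W × K)) := finite_gl
  refine ⟨isPGroup_RT c (oo_sing B), fun Q hQ hQN hQn t ht => ?_⟩
  have hdV : 3 ≤ finrank K (K × W × K) := by
    rw [Module.finrank_prod, Module.finrank_prod, Module.finrank_self]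
    omega
  have hQn' : ∀ q ∈ Q, ∀ x ∈ RT (hypo B) π (oo K W), q * x * q⁻¹ ∈ RT (hypo B) π (oo K W) :=
    fun q hq x hx => (mem_normalizer_iff.mp (hQN hq) x).mp hx
  let Y : Subgroup X := Lf h hQ
  have hYp : IsPGroup p Y := Bt.isPGroup_iff.mpr fun x hx => hx.1
  have hYS : ∀ g ∈ Y, (g : (K × W × K) ≃ₗ[K] (K × W × K)) ∈ StO B := by
    intro g hg
    obtain ⟨k, -, hk⟩ := line_of_norm c h hdV oo_ne (oo_sing B) (hQn' _ hg.2)
    exact ⟨c.cl.1 g.2, k, hk⟩
  obtain ⟨x₀, hx₀, hfix⟩ := Bt.exists_fixed_gen hYp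
    (fun (y : Y) (x : W) => blF ((y : X) : (K × W × K) ≃ₗ[K] (K × W × K)) x)
    (fun x => blF_one x) (fun y z x => blF_mul (hYS y y.2) (hYS z z.2) x)
    (by
      rw [Module.natCard_eq_pow_finrank (K := K)]
      exact dvd_pow Bt.dvd_card_K (by omega)) (x₀ := (0 : W)) (fun y => map_zero _)
  let E : Submodule K W :=
    { carrier := {x | ∀ g ∈ Y, blF (g : (K × W × K) ≃ₗ[K] (K × W × K)) x = x}
      zero_mem' := fun g _ => map_zero _
      add_mem' := by
        intro a b ha hb g hg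
        rw [map_add, ha g hg, hb g hg]
      smul_mem' := by
        intro a x hx g hg
        rw [map_smul, hx g hg] }
  have hbl : ∀ w : W, w ∈ E := by
    refine irr (p := p) hB c.two hd (E := E) ?_ (x := x₀) (fun g hg => hfix ⟨g, hg⟩) hx₀
    intro m hm hmp x hx g hg
    -- the Levi element
    have hlm : lv m 1 ∈ SpG (hypo B) := lv_mem hm 1
    have hlp : Pel p (lv m 1) := by
      obtain ⟨n, hn⟩ := hmp
      have h1 : ∀ i : ℕ, (lv m 1) ^ i = lv (m ^ i) 1 := by
        intro i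
        induction i with
        | zero => rw [pow_zero, pow_zero, lv_one]
        | succ i ih => rw [pow_succ, ih, lv_mul, mul_one, pow_succ]
      exact ⟨n, by rw [h1, hn, lv_one]⟩
    obtain ⟨a, ha⟩ : ∃ a : X, a = ⟨lv m 1, c.cl.pel c.odd hlm hlp⟩ := ⟨_, rfl⟩
    have hav : (a : (K × W × K) ≃ₗ[K] (K × W × K)) = lv m 1 := by rw [ha]
    have haS : (a : (K × W × K) ≃ₗ[K] (K × W × K)) ∈ StO B := by
      rw [hav]
      exact lv_St hm 1
    have haoo : (a : (K × W × K) ≃ₗ[K] (K × W × K)) (oo K W) = oo K W := by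
      rw [hav, lv_apply]
      refine Prod.ext ?_ (Prod.ext ?_ ?_)
      · change ((1 : Kˣ) : K) * 1 = 1
        rw [Units.val_one, one_mul]
      · exact map_zero m
      · exact mul_zero _
    have haN : π a ∈ normalizer (RT (hypo B) π (oo K W) : Set T) := by
      rw [mem_normalizer_iff]
      intro x
      have h1 := RT_conj_iff' c a (π := π) (oo_sing B) (t := π a * x * (π a)⁻¹)
      rw [haoo] at h1
      have h3 : (π a)⁻¹ * (π a * x * (π a)⁻¹) * π a = x := by group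
      rwa [h3] at h1
    have hcj : a⁻¹ * g * a ∈ Y := by
      have h3 : a⁻¹ * g * a = a⁻¹ * g * a⁻¹⁻¹ := by rw [inv_inv]
      rw [h3]
      refine ⟨hg.1.conj _, ?_⟩
      rw [map_mul, map_mul, map_inv π a⁻¹]
      exact hQn _ (by rw [map_inv]; exact Subgroup.inv_mem _ haN) _ hg.2
    have h3 := hx _ hcj
    have h4 : (g : (K × W × K) ≃ₗ[K] (K × W × K)) * a =
        a * ((a⁻¹ * g * a : X) : (K × W × K) ≃ₗ[K] (K × W × K)) := by
      rw [← Subgroup.coe_mul, ← Subgroup.coe_mul]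
      congr 1
      group
    have h5 := congrArg (fun e => blF e x) h4
    rw [blF_mul (hYS g hg) haS, blF_mul haS (hYS _ hcj), h3] at h5
    have h6 : blF (a : (K × W × K) ≃ₗ[K] (K × W × K)) x = m x := by
      rw [hav]
      rfl
    rwa [h6] at h5
  obtain ⟨g, hg, rfl⟩ := exists_pel (p := p) (not_dvd_ker h)
    (Bt.isPGroup_iff.mp hQ _ ht) (h.surj t)
  have hgY : g ∈ Y := ⟨hg, ht⟩
  have hgS := hYS g hgY
  have hlam : lamF (g : (K × W × K) ≃ₗ[K] (K × W × K)) = 1 := by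
    obtain ⟨n, hn⟩ := hg
    have h3 : ∀ i : ℕ, ((g : (K × W × K) ≃ₗ[K] (K × W × K)) ^ i) (oo K W) =
        (lamF (g : (K × W × K) ≃ₗ[K] (K × W × K))) ^ i • oo K W := by
      intro i
      induction i with
      | zero => rw [pow_zero, pow_zero, one_smul]; rfl
      | succ i ih => rw [pow_succ', LinearEquiv.mul_apply, ih, map_smul, lamF_spec hgS, smul_smul,
          pow_succ]
    have h4 := h3 (p ^ n)
    have h5 : (g : (K × W × K) ≃ₗ[K] (K × W × K)) ^ p ^ n = 1 := by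
      rw [← Subgroup.coe_pow, hn]; rfl
    rw [h5] at h4
    have h6 := congrArg Prod.fst h4
    change (1 : K) = (lamF (g : (K × W × K) ≃ₗ[K] (K × W × K))) ^ p ^ n * 1 at h6
    rw [mul_one] at h6
    have h7 : (lamF (g : (K × W × K) ≃ₗ[K] (K × W × K)) - 1) ^ p ^ n = 0 := by
      rw [sub_pow_char_pow, ← h6, one_pow, sub_self]
    exact sub_eq_zero.mp (pow_eq_zero_iff (pow_ne_zero n hp.out.ne_zero) |>.mp h7)
  have h3 : bl B ⟨_, hgS⟩ = 1 := by
    apply Subtype.ext
    apply LinearEquiv.ext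
    intro x
    exact hbl x g hgY
  have h4 : lam B ⟨_, hgS⟩ = 1 := Units.ext hlam
  obtain ⟨z, h5⟩ := exists_qo hB c.two h3 h4
  refine (mem_RT_oo c).mpr ⟨z, ?_⟩
  congr 1
  apply Subtype.ext
  rw [qX_val c]
  exact h5

end Oo

section Gen

variable {K V : Type*} [Field K] [Finite K] [AddCommGroup V] [Module K V] [Module.Finite K V]
  {p : ℕ} [hp : Fact p.Prime]
  [CharP K p] {B : BilinForm K V} {X : Subgroup (V ≃ₗ[K] V)} (c : Ctx p B X)
  {T : Type*} [Group T] {π : X →* T} (h : PiC π)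

include hp c h in
/-- small centralisers -/
theorem card_RT {u : V} (hu0 : u ≠ 0) (hu : B u u = 0) {g : X}
    (hg : ∀ k : K, (g : V ≃ₗ[K] V) u ≠ k • u) :
    Nat.card (RT B π u ⊓ centralizer {π g} : Subgroup T) ≤ Nat.card K := by
  haveI : Finite V := Module.finite_of_finite K
  haveI : Finite (V ≃ₗ[K] V) := finite_gl
  haveI : Finite T := Finite.of_surjective π h.surj
  have hgu0 : (g : V ≃ₗ[K] V) u ≠ 0 := fun h0 => hu0 ((g : V ≃ₗ[K] V).map_eq_zero_iff.mp h0)
  have hgu : B ((g : V ≃ₗ[K] V) u) ((g : V ≃ₗ[K] V) u) = 0 := by rw [iso c, hu]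
  have key : ∀ t : (RT B π u ⊓ centralizer {π g} : Subgroup T), ∃ b : K,
      (t : T) = π (rX B X u (b • (g : V ≃ₗ[K] V) u)) := by
    intro t
    obtain ⟨y, hy, hty⟩ := (mem_RT c hu).mp t.2.1
    have h1 := mem_centralizer_iff.mp t.2.2 _ rfl
    rw [hty] at h1
    have h3 := comm_of_pi h (rX_pel c hu hy) h1
    rw [rX_conj c g hu hy] at h3
    obtain ⟨a, b, hab, hb, -⟩ := rX_eq c hu0 hgu0 hu hgu hy (by rw [iso c, hy]) hg h3.symm
    refine ⟨b, ?_⟩
    rw [hty, hab, add_comm, rX_shift c hu (by rw [map_smul, smul_eq_mul, hb])]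
  choose b hb using key
  refine Nat.card_le_card_of_injective b ?_
  intro s t hst
  apply Subtype.ext
  rw [hb, hb t, hst]

end Gen

section Main

variable {K W : Type*} [Field K] [Finite K] [AddCommGroup W] [Module K W] [Module.Finite K W]
  {p : ℕ} [hp : Fact p.Prime] [CharP K p] {B : BilinForm K W} (hB : Sm B)
  {X : Subgroup ((K × W × K) ≃ₗ[K] (K × W × K))} (c : Ctx p (hypo B) X)
  {T : Type*} [Group T] {π : X →* T} (h : PiC π)

include hp hB c h

theorem Phi_oo (hd : 3 ≤ finrank K W) : Phi p (Nat.card K) (RT (hypo B) π (oo K W)) := by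
  haveI : Finite W := Module.finite_of_finite K
  haveI : Finite ((K × W × K) ≃ₗ[K] (K × W × K)) := finite_gl
  refine ⟨?_, isRad_oo hB c h hd, fun s hs t ht => RT_comm c (oo_sing B) hs ht, ?_⟩
  · intro h0
    obtain ⟨e, he0, -⟩ := exists_sing hB c.two hd
    apply he0
    apply pq_inj c h
    have h1 : π (qX B X e) ∈ RT (hypo B) π (oo K W) := (mem_RT_oo c).mpr ⟨e, rfl⟩
    rw [h0, mem_bot] at h1
    rw [h1, qX_zero c, map_one]
  · intro t ht
    obtain ⟨g, rfl⟩ := h.surj t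
    refine card_RT c h oo_ne (oo_sing B) fun k hk => ht ?_
    have hk0 : k ≠ 0 := by
      rintro rfl
      rw [zero_smul] at hk
      exact oo_ne ((g : (K × W × K) ≃ₗ[K] (K × W × K)).map_eq_zero_iff.mp hk)
    rw [mem_normalizer_iff]
    intro x
    have h1 := RT_conj_iff' c g (π := π) (oo_sing B) (t := π g * x * (π g)⁻¹)
    rw [hk, RT_smul c hk0 (oo_sing B)] at h1
    have h3 : (π g)⁻¹ * (π g * x * (π g)⁻¹) * π g = x := by group
    rwa [h3] at h1

/-- all radicals -/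
theorem RT_conj_oo (hd : 3 ≤ finrank K W) {v : K × W × K} (hv0 : v ≠ 0)
    (hv : hypo B v v = 0) : ∃ g : X, ∀ x, (π g)⁻¹ * x * π g ∈ RT (hypo B) π (oo K W) ↔
      x ∈ RT (hypo B) π v := by
  obtain ⟨g, k, hk0, hk⟩ := trans c (by
    rw [Module.finrank_prod, Module.finrank_prod, Module.finrank_self]
    omega) oo_ne hv0 (oo_sing B) hv
  refine ⟨g, fun x => ?_⟩
  rw [RT_conj_iff' c g (oo_sing B), hk, RT_smul c hk0 hv]

theorem Phi_RT (hd : 3 ≤ finrank K W) {v : K × W × K} (hv0 : v ≠ 0)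
    (hv : hypo B v v = 0) : Phi p (Nat.card K) (RT (hypo B) π v) := by
  obtain ⟨g, hg⟩ := RT_conj_oo hB c h hd hv0 hv
  have h1 := (Phi_oo hB c h hd).map (MulAut.conj (π g))
  have h3 : (RT (hypo B) π (oo K W)).map (MulAut.conj (π g)).toMonoidHom = RT (hypo B) π v := by
    ext x
    rw [mem_map_aut, ← hg]
    rfl
  rwa [h3] at h1

theorem cent_RT (hd : 3 ≤ finrank K W) {v : K × W × K} (hv0 : v ≠ 0)
    (hv : hypo B v v = 0) {t : T} (ht : ∀ s ∈ RT (hypo B) π v, t * s = s * t) :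
    t ∈ RT (hypo B) π v := by
  obtain ⟨g, hg⟩ := RT_conj_oo hB c h hd hv0 hv
  rw [← hg]
  refine cent_oo hB c h hd fun s hs => ?_
  have h1 := ht (π g * s * (π g)⁻¹) ((hg _).mp (by
    have h3 : (π g)⁻¹ * (π g * s * (π g)⁻¹) * π g = s := by group
    rwa [h3]))
  have h3 : (π g)⁻¹ * (t * (π g * s * (π g)⁻¹)) * π g = (π g)⁻¹ * (π g * s * (π g)⁻¹ * t) * π g := by
    rw [h1]
  have h4 : (π g)⁻¹ * (t * (π g * s * (π g)⁻¹)) * π g = (π g)⁻¹ * t * π g * s := by group
  have h5 : (π g)⁻¹ * (π g * s * (π g)⁻¹ * t) * π g = s * ((π g)⁻¹ * t * π g) := by group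
  rw [← h4, h3, h5]

/-- **The radicals are permuted by the automorphisms.** -/
theorem exists_img (hd : 5 ≤ finrank K W) (hd6 : finrank K W ≠ 6) (β : MulAut T)
    {v : K × W × K} (hv0 : v ≠ 0) (hv : hypo B v v = 0) :
    ∃ w : K × W × K, w ≠ 0 ∧ hypo B w w = 0 ∧
      ∀ x, β x ∈ RT (hypo B) π w ↔ x ∈ RT (hypo B) π v := by
  have hfin : finrank K (K × W × K) = finrank K W + 2 := by
    rw [Module.finrank_prod, Module.finrank_prod, Module.finrank_self]
    omega
  obtain ⟨w, hw0, hw, hQ⟩ := eq_RT_of_Phi c h (by omega) (by omega)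
    (fun u hu0 hu t ht => cent_RT hB c h (by omega) hu0 hu ht)
    ((Phi_RT hB c h (by omega) hv0 hv).map β)
  refine ⟨w, hw0, hw, fun x => ?_⟩
  rw [← hQ, mem_map_aut, MulEquiv.symm_apply_apply]

end Main

end Vale.Agent.P180.R2.H589.Oa
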